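import Mathlib

set_option autoImplicit false
open MeasureTheory Set
open scoped ENNReal

namespace Crest.Agent.H7Cyl

abbrev E2 := EuclideanSpace ℝ (Fin 2)
abbrev E3 := EuclideanSpace ℝ (Fin 3)

/-- the linear map `p ↦ p 0 • a + p 1 • b`. -/
noncomputable def lin (a b : E3) : E2 →ₗ[ℝ] E3 where
  toFun p := p 0 • a + p 1 • b
  map_add' p q := by simp [add_smul]; abel
  map_smul' c p := by simp [smul_add, mul_smul]

@[simp] theorem lin_apply (a b : E3) (p : E2) : lin a b p = p 0 • a + p 1 • b := rfl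

/-- area of the parallelogram spanned by `a`, `b`. -/
noncomputable def gram (a b : E3) : ℝ := Real.sqrt (‖a‖ ^ 2 * ‖b‖ ^ 2 - inner ℝ a b ^ 2)

theorem gram_nonneg (a b : E3) : 0 ≤ gram a b := Real.sqrt_nonneg _

theorem normDet_lin (a b : E3) : (lin a b).normDet = gram a b := by
  have h := (lin a b).normDet_sq_eq_det_gram (EuclideanSpace.basisFun (Fin 2) ℝ)
  have h2 : (lin a b).normDet ^ 2 = ‖a‖ ^ 2 * ‖b‖ ^ 2 - inner ℝ a b ^ 2 := by
    simp only [RCLike.ofReal_real_eq_id, id] at h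
    rw [h, Matrix.det_fin_two]
    simp [Matrix.gram_apply, real_inner_comm a b]
    ring
  unfold gram
  rw [← h2, Real.sqrt_sq (lin a b).normDet_nonneg]

theorem area_image (c a b : E3) (A : Set E2) :
    μHE[2] ((fun p : E2 => c + p 0 • a + p 1 • b) '' A) = ENNReal.ofReal (gram a b) * volume A := by
  have h := (lin a b).euclideanHausdorffMeasure_image_eq_normDet_mul_volume A
  rw [normDet_lin] at h
  simp only [finrank_euclideanSpace, Fintype.card_fin] at h
  rw [← h]
  have : (fun p : E2 => c + p 0 • a + p 1 • b) '' A = (fun y => c + y) '' (lin a b '' A) := by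
    rw [image_image]; simp [add_assoc]
  rw [this]
  exact (isometry_add_left c).euclideanHausdorffMeasure_image _

theorem mp2 : MeasurePreserving (fun p : E2 => ((p 0, p 1) : ℝ × ℝ)) volume volume := by
  have h1 := PiLp.volume_preserving_ofLp (Fin 2)
  have h2 := volume_preserving_finTwoArrow ℝ
  exact h2.comp h1

theorem volume_E2 (S : Set (ℝ × ℝ)) (hS : MeasurableSet S) :
    volume {p : E2 | (p 0, p 1) ∈ S} = volume S :=
  mp2.measure_preimage hS.nullMeasurableSet

/-- standard triangle -/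
def stdTri : Set E2 := {p | 0 ≤ p 0 ∧ 0 ≤ p 1 ∧ p 0 + p 1 ≤ 1}

theorem volume_stdTri : volume stdTri = ENNReal.ofReal (1 / 2) := by
  have hm : MeasurableSet {z : ℝ × ℝ | 0 ≤ z.1 ∧ 0 ≤ z.2 ∧ z.1 + z.2 ≤ 1} := by
    measurability
  have := volume_E2 _ hm
  simp only [mem_ofPred_eq] at this
  unfold stdTri
  rw [this, Measure.volume_eq_prod, Measure.prod_apply hm]
  have h : ∀ x : ℝ, volume (Prod.mk x ⁻¹' {z : ℝ × ℝ | 0 ≤ z.1 ∧ 0 ≤ z.2 ∧ z.1 + z.2 ≤ 1}) =
      (Icc (0:ℝ) 1).indicator (fun x => ENNReal.ofReal (1 - x)) x := by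
    intro x
    by_cases hx : x ∈ Icc (0:ℝ) 1
    · rw [indicator_of_mem hx]
      have : Prod.mk x ⁻¹' {z : ℝ × ℝ | 0 ≤ z.1 ∧ 0 ≤ z.2 ∧ z.1 + z.2 ≤ 1} = Icc 0 (1 - x) := by
        ext y
        simp only [mem_preimage, mem_ofPred_eq, mem_Icc]
        constructor
        · rintro ⟨_, h2, h3⟩; exact ⟨h2, by linarith⟩
        · rintro ⟨h2, h3⟩; exact ⟨hx.1, h2, by linarith⟩
      rw [this]; simp
    · rw [indicator_of_notMem hx]
      have : Prod.mk x ⁻¹' {z : ℝ × ℝ | 0 ≤ z.1 ∧ 0 ≤ z.2 ∧ z.1 + z.2 ≤ 1} = ∅ := by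
        ext y
        simp only [mem_preimage, mem_ofPred_eq, mem_empty_iff_false, iff_false]
        rintro ⟨h1, h2, h3⟩
        exact hx ⟨h1, by linarith⟩
      rw [this]; simp
  simp_rw [h]
  rw [lintegral_indicator measurableSet_Icc, ← ofReal_integral_eq_lintegral_ofReal]
  · congr 1
    rw [integral_Icc_eq_integral_Ioc, ← intervalIntegral.integral_of_le zero_le_one]
    rw [intervalIntegral.integral_sub (by simp) (by simp)]
    simp; norm_num
  · exact (Continuous.continuousOn (by fun_prop)).integrableOn_Icc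
  · filter_upwards [ae_restrict_mem measurableSet_Icc] with x hx
    simp only [Pi.zero_apply]; linarith [hx.2]

/-- unit square -/
def stdSq : Set E2 := {p | p 0 ∈ Icc (0:ℝ) 1 ∧ p 1 ∈ Icc (0:ℝ) 1}

theorem volume_rect (a b c d : ℝ) :
    volume {p : E2 | p 0 ∈ Icc a b ∧ p 1 ∈ Icc c d} = ENNReal.ofReal (b - a) * ENNReal.ofReal (d - c) := by
  have hm : MeasurableSet (Icc a b ×ˢ Icc c d) := measurableSet_Icc.prod measurableSet_Icc
  have := volume_E2 _ hm
  simp only [mem_prod] at this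
  rw [this, Measure.volume_eq_prod, Measure.prod_prod]; simp

theorem volume_rect' (a b c d : ℝ) :
    volume {p : E2 | p 0 ∈ Ico a b ∧ p 1 ∈ Ico c d} = ENNReal.ofReal (b - a) * ENNReal.ofReal (d - c) := by
  have hm : MeasurableSet (Ico a b ×ˢ Ico c d) := measurableSet_Ico.prod measurableSet_Ico
  have := volume_E2 _ hm
  simp only [mem_prod] at this
  rw [this, Measure.volume_eq_prod, Measure.prod_prod]; simp

theorem volume_stdSq : volume stdSq = 1 := by
  unfold stdSq; rw [volume_rect]; simp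

theorem mem_hull3 {V : Type*} [AddCommGroup V] [Module ℝ V] (p q r x : V) :
    x ∈ convexHull ℝ ({p, q, r} : Set V) ↔
      ∃ s t : ℝ, 0 ≤ s ∧ 0 ≤ t ∧ s + t ≤ 1 ∧ x = p + s • (q - p) + t • (r - p) := by
  constructor
  · intro hx
    have hc : Convex ℝ {x : V | ∃ s t : ℝ, 0 ≤ s ∧ 0 ≤ t ∧ s + t ≤ 1 ∧
        x = p + s • (q - p) + t • (r - p)} := by
      rintro x ⟨s, t, hs, ht, hst, rfl⟩ y ⟨s', t', hs', ht', hst', rfl⟩ a b ha hb hab
      refine ⟨a * s + b * s', a * t + b * t', by positivity, by positivity, by nlinarith, ?_⟩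
      have hb' : b = 1 - a := by linarith
      subst hb'
      module
    refine convexHull_min ?_ hc hx
    intro y hy
    simp only [mem_insert_iff, mem_singleton_iff] at hy
    rcases hy with rfl | rfl | rfl
    · exact ⟨0, 0, le_rfl, le_rfl, by norm_num, by simp⟩
    · exact ⟨1, 0, by norm_num, le_rfl, by norm_num, by simp⟩
    · exact ⟨0, 1, le_rfl, by norm_num, by norm_num, by simp⟩
  · rintro ⟨s, t, hs, ht, hst, rfl⟩
    have hc := convex_convexHull ℝ ({p, q, r} : Set V)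
    have hp : p ∈ convexHull ℝ ({p, q, r} : Set V) := subset_convexHull _ _ (by simp)
    have hq : q ∈ convexHull ℝ ({p, q, r} : Set V) := subset_convexHull _ _ (by simp)
    have hr : r ∈ convexHull ℝ ({p, q, r} : Set V) := subset_convexHull _ _ (by simp)
    have := hc.sum_mem (t := Finset.univ) (w := ![1 - s - t, s, t]) (z := ![p, q, r])
      (by intro i _; fin_cases i <;> simp <;> linarith) (by simp [Fin.sum_univ_three]; ring)
      (by intro i _; fin_cases i <;> simpa)
    simp only [Fin.sum_univ_three] at this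
    convert this using 1
    simp
    module

theorem hull3_eq_image (p q r : E3) :
    convexHull ℝ ({p, q, r} : Set E3) =
      (fun z : E2 => p + z 0 • (q - p) + z 1 • (r - p)) '' stdTri := by
  ext x
  rw [mem_hull3]
  constructor
  · rintro ⟨s, t, hs, ht, hst, rfl⟩
    exact ⟨!₂[s, t], by simp [stdTri, hs, ht, hst], by simp⟩
  · rintro ⟨z, ⟨h1, h2, h3⟩, rfl⟩
    exact ⟨z 0, z 1, h1, h2, h3, rfl⟩

theorem area_tri (p q r : E3) :
    μHE[2] (convexHull ℝ ({p, q, r} : Set E3)) = ENNReal.ofReal (gram (q - p) (r - p) / 2) := by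
  rw [hull3_eq_image, area_image, volume_stdTri, ← ENNReal.ofReal_mul (gram_nonneg _ _)]
  congr 1; ring

theorem area_tri_toReal (p q r : E3) :
    (μHE[2] (convexHull ℝ ({p, q, r} : Set E3))).toReal = gram (q - p) (r - p) / 2 := by
  rw [area_tri, ENNReal.toReal_ofReal (by have := gram_nonneg (q - p) (r - p); positivity)]

theorem par_eq_image (c a b : E3) :
    {x : E3 | ∃ s ∈ Icc (0 : ℝ) 1, ∃ t ∈ Icc (0 : ℝ) 1, x = c + s • a + t • b} =
      (fun z : E2 => c + z 0 • a + z 1 • b) '' stdSq := by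
  ext x
  constructor
  · rintro ⟨s, hs, t, ht, rfl⟩
    exact ⟨!₂[s, t], by simpa [stdSq] using ⟨hs, ht⟩, by simp⟩
  · rintro ⟨z, ⟨h1, h2⟩, rfl⟩
    exact ⟨z 0, h1, z 1, h2, rfl⟩

theorem area_par (c a b : E3) :
    μHE[2] {x : E3 | ∃ s ∈ Icc (0 : ℝ) 1, ∃ t ∈ Icc (0 : ℝ) 1, x = c + s • a + t • b} =
      ENNReal.ofReal (gram a b) := by
  rw [par_eq_image, area_image, volume_stdSq, mul_one]

/-- triple product -/
def det3 (a b v : E3) : ℝ :=
  a 0 * (b 1 * v 2 - b 2 * v 1) - a 1 * (b 0 * v 2 - b 2 * v 0) + a 2 * (b 0 * v 1 - b 1 * v 0)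

theorem inner3 (a b : E3) : inner ℝ a b = a 0 * b 0 + a 1 * b 1 + a 2 * b 2 := by
  simp [PiLp.inner_apply, Fin.sum_univ_three]; ring

theorem normsq3 (a : E3) : ‖a‖ ^ 2 = a 0 ^ 2 + a 1 ^ 2 + a 2 ^ 2 := by
  rw [← real_inner_self_eq_norm_sq, inner3]; ring

/-- projection along `v` onto `v^⊥` -/
noncomputable def proj (v y : E3) : E3 := y - (inner ℝ y v / ‖v‖ ^ 2) • v

theorem proj_unit {v : E3} (hv : ‖v‖ = 1) (y : E3) : proj v y = y - inner ℝ y v • v := by
  simp [proj, hv]

theorem inner_proj {v : E3} (hv : v ≠ 0) (y : E3) : inner ℝ (proj v y) v = 0 := by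
  have : ‖v‖ ≠ 0 := norm_ne_zero_iff.mpr hv
  simp only [proj, inner_sub_left, inner_smul_left, real_inner_self_eq_norm_sq]
  simp; field_simp; ring

theorem proj_add (v x y : E3) : proj v (x + y) = proj v x + proj v y := by
  simp only [proj, inner_add_left, add_div, add_smul]; abel

theorem proj_sub (v x y : E3) : proj v (x - y) = proj v x - proj v y := by
  simp only [proj, inner_sub_left, sub_div, sub_smul]; abel

theorem proj_smul (v x : E3) (c : ℝ) : proj v (c • x) = c • proj v x := by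
  simp only [proj, inner_smul_left, smul_sub, smul_smul]
  simp [mul_div_assoc]

theorem proj_self {v : E3} (hv : v ≠ 0) : proj v v = 0 := by
  have : ‖v‖ ≠ 0 := norm_ne_zero_iff.mpr hv
  simp only [proj, real_inner_self_eq_norm_sq]
  rw [div_self (by positivity)]; simp

theorem eq_proj_add (v y : E3) : y = proj v y + (inner ℝ y v / ‖v‖ ^ 2) • v := by
  simp [proj]

theorem gram_proj {v : E3} (hv : v ≠ 0) (a b : E3) :
    gram (proj v a) (proj v b) = |det3 a b v| / ‖v‖ := by
  have hn : 0 < ‖v‖ := norm_pos_iff.mpr hv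
  have h2 : 0 < ‖v‖ ^ 2 := by positivity
  unfold gram
  rw [← abs_of_pos hn, ← abs_div, ← Real.sqrt_sq_eq_abs]
  congr 1
  rw [div_pow, normsq3 (proj v a), normsq3 (proj v b), inner3]
  simp only [proj, inner3, PiLp.sub_apply, PiLp.smul_apply, smul_eq_mul, det3]
  have h3 := normsq3 v
  rw [h3] at h2 ⊢
  field_simp
  ring

theorem gram_smul (a b : E3) (s t : ℝ) : gram (s • a) (t • b) = |s * t| * gram a b := by
  unfold gram
  rw [← Real.sqrt_sq_eq_abs, ← Real.sqrt_mul (sq_nonneg _)]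
  congr 1
  simp only [norm_smul, inner_smul_left, inner_smul_right, mul_pow, Real.norm_eq_abs, sq_abs]
  simp; ring

theorem gram_comb (a b : E3) (s t s' t' : ℝ) :
    gram (s • a + t • b) (s' • a + t' • b) = |s * t' - t * s'| * gram a b := by
  unfold gram
  rw [← Real.sqrt_sq_eq_abs, ← Real.sqrt_mul (sq_nonneg _)]
  congr 1
  simp only [normsq3, inner3, PiLp.add_apply, PiLp.smul_apply, smul_eq_mul]
  ring

theorem gram_iso (O : E3 →ₗᵢ[ℝ] E3) (a b : E3) : gram (O a) (O b) = gram a b := by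
  unfold gram; simp

end Crest.Agent.H7Cyl
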