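import Crest.Agent.H7Cyl.Basic

set_option autoImplicit false
open MeasureTheory Set
open scoped ENNReal

namespace Crest.Agent.H7Cyl

def cellO (ρ : ℝ) (k : ℤ × ℤ) : Set E2 :=
  {p | p 0 ∈ Ico (k.1 * ρ) ((k.1 + 1) * ρ) ∧ p 1 ∈ Ico (k.2 * ρ) ((k.2 + 1) * ρ)}

def cellC (ρ : ℝ) (k : ℤ × ℤ) : Set E2 :=
  {p | p 0 ∈ Icc (k.1 * ρ) ((k.1 + 1) * ρ) ∧ p 1 ∈ Icc (k.2 * ρ) ((k.2 + 1) * ρ)}

noncomputable def corner (ρ : ℝ) (k : ℤ × ℤ) : E2 := !₂[k.1 * ρ, k.2 * ρ]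

theorem cellO_sub (ρ : ℝ) (k : ℤ × ℤ) : cellO ρ k ⊆ cellC ρ k :=
  fun _ hp => ⟨Ico_subset_Icc_self hp.1, Ico_subset_Icc_self hp.2⟩

theorem measurableSet_cellO (ρ : ℝ) (k : ℤ × ℤ) : MeasurableSet (cellO ρ k) := by
  unfold cellO
  exact (measurableSet_Ico.preimage (by fun_prop : Measurable fun p : E2 => p 0)).inter
    (measurableSet_Ico.preimage (by fun_prop : Measurable fun p : E2 => p 1))

theorem isClosed_cellC (ρ : ℝ) (k : ℤ × ℤ) : IsClosed (cellC ρ k) := by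
  unfold cellC
  exact (isClosed_Icc.preimage (by fun_prop : Continuous fun p : E2 => p 0)).inter
    (isClosed_Icc.preimage (by fun_prop : Continuous fun p : E2 => p 1))

theorem volume_cellO {ρ : ℝ} (hρ : 0 < ρ) (k : ℤ × ℤ) :
    volume (cellO ρ k) = ENNReal.ofReal (ρ ^ 2) := by
  unfold cellO
  rw [volume_rect', ← ENNReal.ofReal_mul (by linarith)]; congr 1; ring

theorem volume_cellC {ρ : ℝ} (hρ : 0 < ρ) (k : ℤ × ℤ) :
    volume (cellC ρ k) = ENNReal.ofReal (ρ ^ 2) := by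
  unfold cellC
  rw [volume_rect, ← ENNReal.ofReal_mul (by linarith)]; congr 1; ring

theorem volume_inter_cell {ρ : ℝ} (hρ : 0 < ρ) (k : ℤ × ℤ) (D : Set E2) :
    volume (D ∩ cellC ρ k) = volume (D ∩ cellO ρ k) := by
  have h : volume (cellC ρ k \ cellO ρ k) = 0 := by
    rw [measure_sdiff (cellO_sub ρ k) (measurableSet_cellO ρ k).nullMeasurableSet
      (by rw [volume_cellO hρ]; simp), volume_cellO hρ, volume_cellC hρ, tsub_self]
  apply le_antisymm _ (measure_mono (inter_subset_inter_right _ (cellO_sub ρ k)))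
  calc volume (D ∩ cellC ρ k) ≤ volume ((D ∩ cellO ρ k) ∪ (cellC ρ k \ cellO ρ k)) := by
        apply measure_mono
        rintro p ⟨h1, h2⟩
        by_cases h3 : p ∈ cellO ρ k
        · exact Or.inl ⟨h1, h3⟩
        · exact Or.inr ⟨h2, h3⟩
    _ ≤ _ := measure_union_le _ _
    _ = _ := by rw [h, add_zero]

theorem floor_eq_of_mem {ρ x : ℝ} (hρ : 0 < ρ) {k : ℤ} :
    x ∈ Ico (k * ρ) ((k + 1) * ρ) ↔ ⌊x / ρ⌋ = k := by
  rw [Int.floor_eq_iff, le_div_iff₀ hρ, div_lt_iff₀ hρ]; rfl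

theorem mem_cellO {ρ : ℝ} (hρ : 0 < ρ) {k : ℤ × ℤ} {p : E2} :
    p ∈ cellO ρ k ↔ (⌊p 0 / ρ⌋, ⌊p 1 / ρ⌋) = k := by
  unfold cellO
  rw [mem_ofPred_eq, floor_eq_of_mem hρ, floor_eq_of_mem hρ, Prod.ext_iff]

theorem disjoint_cellO {ρ : ℝ} (hρ : 0 < ρ) {k l : ℤ × ℤ} (h : k ≠ l) :
    Disjoint (cellO ρ k) (cellO ρ l) := by
  rw [Set.disjoint_left]
  intro p h1 h2
  rw [mem_cellO hρ] at h1 h2
  exact h (h1.symm.trans h2)

theorem normsq2 (a : E2) : ‖a‖ ^ 2 = a 0 ^ 2 + a 1 ^ 2 := by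
  rw [EuclideanSpace.norm_sq_eq]; simp [Fin.sum_univ_two]

theorem inner2 (a b : E2) : inner ℝ a b = a 0 * b 0 + a 1 * b 1 := by
  simp [PiLp.inner_apply, Fin.sum_univ_two]; ring

theorem norm_le_two {a : E2} {ρ : ℝ} (h0 : |a 0| ≤ ρ) (h1 : |a 1| ≤ ρ) : ‖a‖ ≤ 2 * ρ := by
  have hρ : 0 ≤ ρ := (abs_nonneg _).trans h0
  rw [← sq_le_sq₀ (norm_nonneg _) (by positivity), normsq2]
  have e0 := sq_le_sq' (abs_le.mp h0).1 (abs_le.mp h0).2
  have e1 := sq_le_sq' (abs_le.mp h1).1 (abs_le.mp h1).2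
  nlinarith

theorem dist_cell {ρ : ℝ} {k : ℤ × ℤ} {p q : E2} (hp : p ∈ cellC ρ k) (hq : q ∈ cellC ρ k) :
    dist p q ≤ 2 * ρ := by
  rw [dist_eq_norm]
  obtain ⟨⟨a1, a2⟩, a3, a4⟩ := hp
  obtain ⟨⟨b1, b2⟩, b3, b4⟩ := hq
  apply norm_le_two <;> simp only [PiLp.sub_apply, abs_le] <;> constructor <;> linarith

theorem mem_cellC {ρ : ℝ} (hρ : 0 < ρ) {k : ℤ × ℤ} {p : E2} (hp : p ∈ cellC ρ k) :
    ∃ x ∈ Icc (0 : ℝ) 1, ∃ y ∈ Icc (0 : ℝ) 1, p = corner ρ k + ρ • !₂[x, y] := by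
  obtain ⟨⟨a1, a2⟩, a3, a4⟩ := hp
  refine ⟨p 0 / ρ - k.1, ⟨?_, ?_⟩, p 1 / ρ - k.2, ⟨?_, ?_⟩, ?_⟩
  · rw [sub_nonneg, le_div_iff₀ hρ]; exact a1
  · rw [sub_le_iff_le_add', div_le_iff₀ hρ]; exact a2
  · rw [sub_nonneg, le_div_iff₀ hρ]; exact a3
  · rw [sub_le_iff_le_add', div_le_iff₀ hρ]; exact a4
  · ext i; fin_cases i <;> simp [corner] <;> field_simp <;> ring

theorem corner_mem {ρ : ℝ} (hρ : 0 < ρ) (k : ℤ × ℤ) : corner ρ k ∈ cellC ρ k := by
  constructor <;> simp [corner] <;> linarith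

theorem grid {T : Set E2} (hT : IsCompact T) {η r0 : ℝ} (hη : 0 < η) (hr0 : 0 < r0) :
    ∃ ρ : ℝ, 0 < ρ ∧ ρ ≤ r0 ∧ ∃ F : Finset (ℤ × ℤ), (∀ p ∈ T, ∃ k ∈ F, p ∈ cellO ρ k) ∧
      (∀ k ∈ F, ∃ p ∈ T, p ∈ cellO ρ k) ∧ (F.card : ℝ) * ρ ^ 2 ≤ (volume T).toReal + η := by
  have hfin : volume T ≠ ⊤ := hT.measure_lt_top.ne
  have h1 := tendsto_measure_cthickening_of_isCompact (μ := volume) hT
  have h2 : volume T < volume T + ENNReal.ofReal η :=
    ENNReal.lt_add_right hfin (by simpa using hη)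
  have h3 := h1.eventually (gt_mem_nhds h2)
  obtain ⟨δ, hδ, hδ'⟩ := Metric.eventually_nhds_iff.mp h3
  set ρ := min r0 (δ / 4) with hρ
  have hρ0 : 0 < ρ := lt_min hr0 (by positivity)
  have hρ1 : 2 * ρ < δ := by have := min_le_right r0 (δ / 4); linarith
  have h4 := hδ' (y := 2 * ρ) (by rw [Real.dist_eq, sub_zero, abs_of_pos (by positivity)]; exact hρ1)
  obtain ⟨M, hM⟩ := hT.isBounded.exists_norm_le
  have hidx : ((fun p : E2 => (⌊p 0 / ρ⌋, ⌊p 1 / ρ⌋)) '' T).Finite := by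
    apply ((Set.finite_Icc ⌊-M / ρ⌋ ⌊M / ρ⌋).prod (Set.finite_Icc ⌊-M / ρ⌋ ⌊M / ρ⌋)).subset
    rintro _ ⟨p, hp, rfl⟩
    have e0 := abs_le.mp ((PiLp.norm_apply_le p 0).trans (hM p hp))
    have e1 := abs_le.mp ((PiLp.norm_apply_le p 1).trans (hM p hp))
    refine ⟨⟨?_, ?_⟩, ?_, ?_⟩ <;> apply Int.floor_mono <;>
      apply div_le_div_of_nonneg_right _ hρ0.le <;> linarith [e0.1, e0.2, e1.1, e1.2]
  have hne : ∀ k ∈ hidx.toFinset, ∃ p ∈ T, p ∈ cellO ρ k := by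
    intro k hk
    obtain ⟨p, hp, rfl⟩ := hidx.mem_toFinset.mp hk
    exact ⟨p, hp, (mem_cellO hρ0).mpr rfl⟩
  refine ⟨ρ, hρ0, min_le_left _ _, hidx.toFinset, ?_, hne, ?_⟩
  · intro p hp
    exact ⟨_, hidx.mem_toFinset.mpr ⟨p, hp, rfl⟩, (mem_cellO hρ0).mpr rfl⟩
  · have h5 : volume (⋃ k ∈ hidx.toFinset, cellO ρ k) = ∑ k ∈ hidx.toFinset, volume (cellO ρ k) :=
      measure_biUnion_finset (fun k _ l _ h => disjoint_cellO hρ0 h)
        (fun k _ => measurableSet_cellO ρ k)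
    have h6 : (⋃ k ∈ hidx.toFinset, cellO ρ k) ⊆ Metric.cthickening (2 * ρ) T := by
      intro q hq
      simp only [mem_iUnion] at hq
      obtain ⟨k, hk, hq⟩ := hq
      obtain ⟨p, hp, hpk⟩ := hne k hk
      exact Metric.mem_cthickening_of_dist_le q p _ _ hp
        (dist_cell (cellO_sub _ _ hq) (cellO_sub _ _ hpk))
    have h7 := (measure_mono h6).trans h4.le
    rw [h5] at h7
    simp only [volume_cellO hρ0, Finset.sum_const, nsmul_eq_mul] at h7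
    have h8 := ENNReal.toReal_mono (by finiteness) h7
    rwa [ENNReal.toReal_mul, ENNReal.toReal_add hfin (by simp), ENNReal.toReal_ofReal hη.le,
      ENNReal.toReal_ofReal (by positivity), ENNReal.toReal_natCast] at h8

/-- the linear map `p ↦ p 0 • a + p 1 • b` in the plane. -/
noncomputable def lin2 (a b : E2) : E2 →ₗ[ℝ] E2 where
  toFun p := p 0 • a + p 1 • b
  map_add' p q := by simp [add_smul]; abel
  map_smul' c p := by simp [smul_add, mul_smul]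

@[simp] theorem lin2_apply (a b : E2) (p : E2) : lin2 a b p = p 0 • a + p 1 • b := rfl

theorem det_E2 (A : E2 →ₗ[ℝ] E2) : LinearMap.det A =
    A !₂[1, 0] 0 * A !₂[0, 1] 1 - A !₂[0, 1] 0 * A !₂[1, 0] 1 := by
  rw [← LinearMap.det_toMatrix (EuclideanSpace.basisFun (Fin 2) ℝ).toBasis, Matrix.det_fin_two]
  have e0 : (EuclideanSpace.single (0 : Fin 2) (1 : ℝ) : E2) = !₂[1, 0] := by
    ext i; fin_cases i <;> simp
  have e1 : (EuclideanSpace.single (1 : Fin 2) (1 : ℝ) : E2) = !₂[0, 1] := by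
    ext i; fin_cases i <;> simp
  simp [LinearMap.toMatrix_apply, e0, e1]

theorem trace_E2 (A : E2 →ₗ[ℝ] E2) : LinearMap.trace ℝ E2 A = A !₂[1, 0] 0 + A !₂[0, 1] 1 := by
  rw [LinearMap.trace_eq_matrix_trace ℝ (EuclideanSpace.basisFun (Fin 2) ℝ).toBasis,
    Matrix.trace_fin_two]
  have e0 : (EuclideanSpace.single (0 : Fin 2) (1 : ℝ) : E2) = !₂[1, 0] := by
    ext i; fin_cases i <;> simp
  have e1 : (EuclideanSpace.single (1 : Fin 2) (1 : ℝ) : E2) = !₂[0, 1] := by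
    ext i; fin_cases i <;> simp
  simp [LinearMap.toMatrix_apply, e0, e1]

theorem det_lin2 (a b : E2) : LinearMap.det (lin2 a b) = a 0 * b 1 - a 1 * b 0 := by
  rw [det_E2]; simp; ring

theorem isCompact_stdTri : IsCompact stdTri := by
  apply Metric.isCompact_of_isClosed_isBounded
  · unfold stdTri
    exact (isClosed_le continuous_const (by fun_prop : Continuous fun p : E2 => p 0)).inter
      ((isClosed_le continuous_const (by fun_prop : Continuous fun p : E2 => p 1)).inter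
        (isClosed_le (by fun_prop : Continuous fun p : E2 => p 0 + p 1) continuous_const))
  · apply (Metric.isBounded_closedBall (x := (0 : E2)) (r := 2 * 1)).subset
    rintro p ⟨h1, h2, h3⟩
    rw [mem_closedBall_zero_iff]
    apply norm_le_two <;> rw [abs_le] <;> constructor <;> linarith

def tri2 (q a b : E2) : Set E2 := (fun p : E2 => q + p 0 • a + p 1 • b) '' stdTri

theorem isCompact_tri2 (q a b : E2) : IsCompact (tri2 q a b) :=
  isCompact_stdTri.image (by fun_prop)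

theorem volume_tri2 (q a b : E2) :
    (volume (tri2 q a b)).toReal = |a 0 * b 1 - a 1 * b 0| / 2 := by
  have : tri2 q a b = (fun y => q + y) '' (lin2 a b '' stdTri) := by
    rw [image_image]; simp [tri2, add_assoc]
  rw [this, image_add_left, measure_preimage_add, Measure.addHaar_image_linearMap, det_lin2,
    volume_stdTri, ← ENNReal.ofReal_mul (abs_nonneg _), ENNReal.toReal_ofReal (by positivity)]
  ring

theorem shape (A : E2 →ₗ[ℝ] E2) {L θ : ℝ} (hL : 0 < L) (hθ : 0 < θ)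
    (htr : LinearMap.trace ℝ E2 A = 0) (hd1 : -(L ^ 2)⁻¹ < LinearMap.det A)
    (hd2 : LinearMap.det A ≤ 0) :
    ∃ (f1 f2 : E2) (μ t : ℝ), f1 0 * f2 1 - f1 1 * f2 0 ≠ 0 ∧ 0 ≤ μ ∧ μ * L ≤ 1 ∧ |t| ≤ θ ∧
      A f1 = μ • f1 ∧ A f2 = (-μ) • f2 + t • f1 := by
  rw [trace_E2] at htr
  rw [det_E2] at hd1 hd2
  set p := A !₂[1, 0] 0 with hp
  set r := A !₂[1, 0] 1 with hr
  set q := A !₂[0, 1] 0 with hq
  have hp' : A !₂[0, 1] 1 = -p := by linarith
  rw [hp'] at hd1 hd2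
  have hA : ∀ x y : ℝ, A !₂[x, y] = !₂[p * x + q * y, r * x - p * y] := by
    intro x y
    have : (!₂[x, y] : E2) = x • !₂[1, 0] + y • !₂[0, 1] := by
      ext i; fin_cases i <;> simp
    rw [this, map_add, map_smul, map_smul]
    ext i; fin_cases i
    · simp [← hp, ← hq]; ring
    · simp [← hr, hp']; ring
  have hD : 0 ≤ p ^ 2 + q * r := by nlinarith
  set μ := Real.sqrt (p ^ 2 + q * r) with hμ
  have hμ0 : 0 ≤ μ := Real.sqrt_nonneg _
  have hμ2 : μ ^ 2 = p ^ 2 + q * r := Real.sq_sqrt hD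
  have hμL : μ * L ≤ 1 := by
    have h1 : μ ^ 2 < (L ^ 2)⁻¹ := by nlinarith
    have h2 : μ ^ 2 * L ^ 2 < 1 := by
      rwa [← one_div, lt_div_iff₀ (by positivity)] at h1
    by_contra hc
    push Not at hc
    nlinarith
  have habs : |θ| ≤ θ := (abs_of_pos hθ).le
  have habs0 : |(0 : ℝ)| ≤ θ := by simpa using hθ.le
  rcases hμ0.eq_or_lt with h0 | h0
  · rw [← h0] at hμ2
    by_cases hq0 : q = 0
    · have hp0 : p = 0 := by rw [hq0] at hμ2; nlinarith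
      by_cases hr0 : r = 0
      · refine ⟨!₂[1, 0], !₂[0, 1], 0, 0, by simp, le_rfl, by simp, habs0, ?_, ?_⟩ <;> rw [hA] <;>
          ext i <;> fin_cases i <;> simp [hp0, hq0, hr0]
      · refine ⟨!₂[0, r], !₂[θ, 0], 0, θ, by simp [hr0, hθ.ne'], le_rfl, by simp, habs, ?_, ?_⟩ <;>
          rw [hA] <;> ext i <;> fin_cases i <;> simp [hp0, hq0, mul_comm]
    · refine ⟨!₂[q, -p], !₂[0, θ], 0, θ, by simp [hq0, hθ.ne'], le_rfl, by simp, habs, ?_, ?_⟩ <;>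
        rw [hA] <;> ext i <;> fin_cases i <;> simp <;> nlinarith
  · by_cases hq0 : q = 0
    · by_cases hr0 : r = 0
      · have : (μ - p) * (μ + p) = 0 := by rw [hq0] at hμ2; nlinarith
        rcases mul_eq_zero.mp this with h | h
        · have hp0 : p = μ := by linarith
          refine ⟨!₂[1, 0], !₂[0, 1], μ, 0, by simp, hμ0, hμL, habs0, ?_, ?_⟩ <;> rw [hA] <;>
            ext i <;> fin_cases i <;> simp [hp0, hq0, hr0]
        · have hp0 : p = -μ := by linarith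
          refine ⟨!₂[0, 1], !₂[1, 0], μ, 0, by simp, hμ0, hμL, habs0, ?_, ?_⟩ <;> rw [hA] <;>
            ext i <;> fin_cases i <;> simp [hp0, hq0, hr0]
      · refine ⟨!₂[μ + p, r], !₂[p - μ, r], μ, 0, ?_, hμ0, hμL, habs0, ?_, ?_⟩
        · have : 2 * μ * r ≠ 0 := by positivity
          intro h; apply this; simp at h; linarith
        all_goals rw [hA]; ext i; fin_cases i <;> simp <;> nlinarith
    · refine ⟨!₂[q, μ - p], !₂[q, -μ - p], μ, 0, ?_, hμ0, hμL, habs0, ?_, ?_⟩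
      · have : 2 * μ * q ≠ 0 := by positivity
        intro h; apply this; simp at h; linarith
      all_goals rw [hA]; ext i; fin_cases i <;> simp <;> nlinarith

end Crest.Agent.H7Cyl
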