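import Crest.Agent.H7Cyl.Basic

set_option autoImplicit false
open MeasureTheory Set
open scoped ENNReal

namespace Crest.Agent.H7Cyl

theorem finrank_perp {u : E3} (hu : u ≠ 0) : Module.finrank ℝ (ℝ ∙ u)ᗮ = 2 := by
  have : Fact (Module.finrank ℝ E3 = 2 + 1) := ⟨by simp⟩
  exact Submodule.finrank_orthogonal_span_singleton hu

theorem area_perp {u : E3} (hu : u ≠ 0) (T : Set ((ℝ ∙ u)ᗮ : Submodule ℝ E3)) :
    μHE[2] (Subtype.val '' T) = volume T := by
  rw [isometry_subtype_coe.euclideanHausdorffMeasure_image,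
    ← InnerProductSpace.euclideanHausdorffMeasure_eq_volume, finrank_perp hu]

theorem image_preimage_perp {u : E3} {B : Set E3} (hBu : ∀ x ∈ B, inner ℝ x u = 0) :
    Subtype.val '' ((Subtype.val : ((ℝ ∙ u)ᗮ : Submodule ℝ E3) → E3) ⁻¹' B) = B := by
  ext x
  constructor
  · rintro ⟨y, hy, rfl⟩; exact hy
  · intro hx
    exact ⟨⟨x, Submodule.mem_orthogonal_singleton_iff_inner_left.mpr (hBu x hx)⟩, hx, rfl⟩

theorem area_lt_top {u : E3} (hu : u ≠ 0) {B : Set E3} (hB : Bornology.IsBounded B)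
    (hBu : ∀ x ∈ B, inner ℝ x u = 0) : μHE[2] B < ⊤ := by
  rw [← image_preimage_perp hBu, area_perp hu]
  apply Bornology.IsBounded.measure_lt_top
  exact isometry_subtype_coe.antilipschitz.isBounded_preimage hB

theorem exists_open_base {u : E3} (hu : u ≠ 0) {B : Set E3} (hB : Bornology.IsBounded B)
    (hBu : ∀ x ∈ B, inner ℝ x u = 0) {η : ℝ} (hη : 0 < η) :
    ∃ B' : Set E3, B ⊆ B' ∧ Bornology.IsBounded B' ∧
      (∃ O : Set E3, IsOpen O ∧ B' = O ∩ {x | inner ℝ x u = 0}) ∧
      (μHE[2] B').toReal ≤ (μHE[2] B).toReal + η := by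
  set W : Submodule ℝ E3 := (ℝ ∙ u)ᗮ with hW
  set T : Set W := Subtype.val ⁻¹' B with hT
  have hfin := area_lt_top hu hB hBu
  have hTB : μHE[2] B = volume T := by rw [← area_perp hu, hT, image_preimage_perp hBu]
  obtain ⟨U, hTU, hUo, hU⟩ := T.exists_isOpen_lt_add (μ := volume) (by rw [← hTB]; exact hfin.ne)
    (ε := ENNReal.ofReal η) (by simpa using hη)
  obtain ⟨r, hr⟩ := hB.subset_ball 0
  obtain ⟨O, hO, hOU⟩ := isOpen_induced_iff.mp hUo
  have hsub : ∀ x ∈ (O ∩ Metric.ball 0 r) ∩ {x : E3 | inner ℝ x u = 0}, inner ℝ x u = 0 :=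
    fun x hx => hx.2
  refine ⟨(O ∩ Metric.ball 0 r) ∩ {x | inner ℝ x u = 0}, ?_, ?_, ⟨_, hO.inter Metric.isOpen_ball, rfl⟩, ?_⟩
  · intro x hx
    refine ⟨⟨?_, hr hx⟩, hBu x hx⟩
    have : (⟨x, Submodule.mem_orthogonal_singleton_iff_inner_left.mpr (hBu x hx)⟩ : W) ∈ U := hTU hx
    rw [← hOU] at this
    exact this
  · exact Metric.isBounded_ball.subset fun x hx => hx.1.2
  · have h1 : μHE[2] ((O ∩ Metric.ball 0 r) ∩ {x : E3 | inner ℝ x u = 0}) ≤ volume U := by
      rw [← image_preimage_perp hsub, area_perp hu]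
      apply measure_mono
      intro y hy
      rw [← hOU]
      exact hy.1.1
    have h2 : μHE[2] ((O ∩ Metric.ball 0 r) ∩ {x : E3 | inner ℝ x u = 0}) ≤
        μHE[2] B + ENNReal.ofReal η := by rw [hTB]; exact h1.trans hU.le
    have h3 := ENNReal.toReal_mono (by finiteness) h2
    rwa [ENNReal.toReal_add hfin.ne (by simp), ENNReal.toReal_ofReal hη.le] at h3

theorem continuous_proj (v : E3) : Continuous (proj v) := by
  unfold proj; fun_prop

theorem area_proj_lt_top {v : E3} (hv : v ≠ 0) {K : Set E3} (hK : IsCompact K) :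
    μHE[2] (proj v '' K) < ⊤ := by
  apply area_lt_top hv (hK.image (continuous_proj v)).isBounded
  rintro _ ⟨y, _, rfl⟩
  exact inner_proj hv y

theorem hull_proj_sub (v : E3) {C : Set E3} (hC : Convex ℝ C) {P Q R : E3} (hP : P ∈ C)
    (hQ : Q ∈ C) (hR : R ∈ C) :
    convexHull ℝ ({proj v P, proj v Q, proj v R} : Set E3) ⊆ proj v '' C := by
  intro x hx
  rw [mem_hull3] at hx
  obtain ⟨s, t, hs, ht, hst, rfl⟩ := hx
  refine ⟨P + s • (Q - P) + t • (R - P), ?_, by simp only [proj_add, proj_smul, proj_sub]⟩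
  have : convexHull ℝ ({P, Q, R} : Set E3) ⊆ C := by
    apply convexHull_min _ hC
    intro y hy
    simp only [mem_insert_iff, mem_singleton_iff] at hy
    rcases hy with rfl | rfl | rfl <;> assumption
  exact this ((mem_hull3 _ _ _ _).mpr ⟨s, t, hs, ht, hst, rfl⟩)

theorem area_tri_proj {v : E3} (hv : v ≠ 0) (P Q R : E3) :
    μHE[2] (convexHull ℝ ({proj v P, proj v Q, proj v R} : Set E3)) =
      ENNReal.ofReal (|det3 (Q - P) (R - P) v| / ‖v‖ / 2) := by
  rw [area_tri, ← proj_sub, ← proj_sub, gram_proj hv]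

theorem det3_proj (a b v : E3) : det3 a (proj v b) v = det3 a b v := by
  simp only [det3, proj, PiLp.sub_apply, PiLp.smul_apply, smul_eq_mul]; ring

theorem one_tri {v : E3} (hv : v ≠ 0) {C : Set E3} (hC : Convex ℝ C) {P Q R : E3} (hP : P ∈ C)
    (hQ : Q ∈ C) (hR : R ∈ C) :
    ENNReal.ofReal (|det3 (Q - P) (R - P) v| / ‖v‖ / 2) ≤ μHE[2] (proj v '' C) := by
  rw [← area_tri_proj hv]
  exact measure_mono (hull_proj_sub v hC hP hQ hR)

theorem two_tri {v : E3} (hv : v ≠ 0) {C : Set E3} (hC : Convex ℝ C) {P Q R S : E3} (hP : P ∈ C)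
    (hQ : Q ∈ C) (hR : R ∈ C) (hS : S ∈ C) :
    ENNReal.ofReal (|det3 (Q - P) (R - P) v - det3 (Q - P) (S - P) v| / ‖v‖ / 2) ≤
      μHE[2] (proj v '' C) := by
  have hn : 0 < ‖v‖ := norm_pos_iff.mpr hv
  set x := det3 (Q - P) (R - P) v with hx
  set y := det3 (Q - P) (S - P) v with hy
  have h1 : ENNReal.ofReal (|x| / ‖v‖ / 2) ≤ μHE[2] (proj v '' C) := one_tri hv hC hP hQ hR
  have h2 : ENNReal.ofReal (|y| / ‖v‖ / 2) ≤ μHE[2] (proj v '' C) := one_tri hv hC hP hQ hS
  by_cases hxy : 0 ≤ x * y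
  · rcases le_total |x| |y| with h | h
    · refine le_trans (ENNReal.ofReal_le_ofReal ?_) h2
      have : |x - y| ≤ |y| := by
        rw [← sq_le_sq] at h ⊢; nlinarith [sq_nonneg (x - y), sq_nonneg (x + y)]
      gcongr
    · refine le_trans (ENNReal.ofReal_le_ofReal ?_) h1
      have : |x - y| ≤ |x| := by
        rw [← sq_le_sq] at h ⊢; nlinarith [sq_nonneg (x - y), sq_nonneg (x + y)]
      gcongr
  · push Not at hxy
    set T1 := convexHull ℝ ({proj v P, proj v Q, proj v R} : Set E3) with hT1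
    set T2 := convexHull ℝ ({proj v P, proj v Q, proj v S} : Set E3) with hT2
    have hm : MeasurableSet T2 :=
      ((Set.toFinite _).isCompact_convexHull ℝ).isClosed.measurableSet
    have h3 := measure_union_add_inter (μ := μHE[2]) T1 hm
    have h4 : μHE[2] (T1 ∩ T2) = 0 := by
      have : T1 ∩ T2 ⊆ convexHull ℝ ({proj v P, proj v Q, proj v Q} : Set E3) := by
        rintro z ⟨hz1, hz2⟩
        rw [hT1, mem_hull3] at hz1
        rw [hT2, mem_hull3] at hz2
        obtain ⟨s, t, hs, ht, hst, e1⟩ := hz1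
        obtain ⟨s', t', hs', ht', hst', e2⟩ := hz2
        have e3 : t * x = t' * y := by
          have e4 : det3 (Q - P) (z - proj v P) v = t * x := by
            rw [e1, add_assoc, add_sub_cancel_left, ← proj_sub, ← proj_sub, ← proj_smul,
              ← proj_smul, ← proj_add, det3_proj, hx]
            simp only [det3, PiLp.add_apply, PiLp.smul_apply, smul_eq_mul]; ring
          have e5 : det3 (Q - P) (z - proj v P) v = t' * y := by
            rw [e2, add_assoc, add_sub_cancel_left, ← proj_sub, ← proj_sub, ← proj_smul,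
              ← proj_smul, ← proj_add, det3_proj, hy]
            simp only [det3, PiLp.add_apply, PiLp.smul_apply, smul_eq_mul]; ring
          rw [← e4, e5]
        have ht0 : t = 0 := by
          by_contra h0
          have htp : 0 < t := lt_of_le_of_ne ht (Ne.symm h0)
          have : t * (x * y) = t' * y ^ 2 := by rw [← mul_assoc, e3]; ring
          nlinarith [mul_nonneg ht' (sq_nonneg y), mul_pos htp (neg_pos.mpr hxy)]
        rw [mem_hull3]
        exact ⟨s, 0, hs, le_rfl, by linarith, by rw [e1, ht0]; simp⟩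
      refine measure_mono_null this ?_
      rw [area_tri_proj hv]
      simp [det3]
      apply div_nonpos_of_nonpos_of_nonneg _ (by norm_num)
      apply div_nonpos_of_nonpos_of_nonneg _ hn.le
      apply le_of_eq
      rw [abs_eq_zero]; ring
    rw [h4, add_zero, hT1, hT2, area_tri_proj hv, area_tri_proj hv, ← hx, ← hy,
      ← ENNReal.ofReal_add (by positivity) (by positivity)] at h3
    have h5 : T1 ∪ T2 ⊆ proj v '' C :=
      union_subset (hull_proj_sub v hC hP hQ hR) (hull_proj_sub v hC hP hQ hS)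
    refine le_trans ?_ (measure_mono h5)
    rw [h3]
    apply ENNReal.ofReal_le_ofReal
    rw [← add_div, ← add_div]
    have := abs_sub x y
    gcongr

end Crest.Agent.H7Cyl
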