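import Crest.Agent.H7Cyl.Tet2
import Crest.Agent.H7Cyl.Plane

set_option autoImplicit false
open MeasureTheory Set
open scoped ENNReal

namespace Crest.Agent.H7Cyl

theorem isCompact_tet : IsCompact tet := (Set.toFinite _).isCompact_convexHull ℝ

theorem convex_tet : Convex ℝ tet := convex_convexHull _ _

theorem min_alg (a b c X : ℝ) (ha : 0 ≤ a) (hb : 0 ≤ b) (hc : 0 ≤ c)
    (h : a ^ 2 + b ^ 2 + c ^ 2 = 1) (h1 : c + Real.sqrt 2 * a ≤ X) (h2 : c + Real.sqrt 2 * b ≤ X)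
    (h3 : 2 * c ≤ X) (h4 : Real.sqrt 2 * (a + b) ≤ X) : Real.sqrt 2 ≤ X := by
  have hs := sqrt2_pos
  have hs2 := sqrt2_sq
  have hX : 0 ≤ X := by linarith
  wlog hab : b ≤ a generalizing a b
  · exact this b a hb ha (by linarith) h2 h1 (by linarith) (by linarith)
  set r := Real.sqrt 2 with hr
  -- v1 = r(a+b)/2, v2 = r(a-b)/2, v3 = c
  have e1 : (r * (a + b) / 2) ^ 2 ≤ X / 2 * (r * (a + b) / 2) := by
    rw [sq]; apply mul_le_mul_of_nonneg_right (by linarith) (by positivity)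
  have hab' : 0 ≤ a - b := by linarith
  have e2 : (r * (a - b) / 2) ^ 2 ≤ X / 2 * (r * (a - b) / 2) := by
    rw [sq]; apply mul_le_mul_of_nonneg_right _ (by positivity)
    nlinarith [mul_nonneg hs.le hb]
  have e3 : c ^ 2 ≤ X / 2 * c := by
    rw [sq]; apply mul_le_mul_of_nonneg_right (by linarith) hc
  have e4 : (r * (a + b) / 2) ^ 2 + (r * (a - b) / 2) ^ 2 + c ^ 2 = 1 := by
    rw [← h]; linear_combination ((a ^ 2 + b ^ 2) / 2) * hs2
  have e5 : X / 2 * (r * (a + b) / 2) + X / 2 * (r * (a - b) / 2) + X / 2 * c ≤ X / 2 * X := by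
    rw [← mul_add, ← mul_add]
    apply mul_le_mul_of_nonneg_left _ (by linarith)
    linarith
  have e6 : r ^ 2 ≤ X ^ 2 := by nlinarith
  exact (pow_le_pow_iff_left₀ hs.le hX two_ne_zero).mp e6

theorem abs_add_le_of {x y X : ℝ} (h1 : |x + y| ≤ X) (h2 : |x - y| ≤ X) : |x| + |y| ≤ X := by
  have h3 := abs_le.mp h1
  have h4 := abs_le.mp h2
  rcases abs_cases x with h | h <;> rcases abs_cases y with h' | h' <;> linarith

theorem minProj_real (v : E3) (hv : ‖v‖ = 1) :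
    Real.sqrt 2 ≤ (μHE[2] (proj v '' tet)).toReal := by
  have hv0 : v ≠ 0 := by intro h; rw [h, norm_zero] at hv; exact zero_ne_one hv
  have hfin := area_proj_lt_top hv0 isCompact_tet
  set X := (μHE[2] (proj v '' tet)).toReal with hX
  have key : ∀ x : ℝ, ENNReal.ofReal x ≤ μHE[2] (proj v '' tet) → x ≤ X := fun x hx =>
    (ENNReal.ofReal_le_iff_le_toReal hfin.ne).mp hx
  have hA : (!₂[1, 0, 0] : E3) ∈ tet := subset_convexHull _ _ (by simp)
  have hB : (!₂[-1, 0, 0] : E3) ∈ tet := subset_convexHull _ _ (by simp)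
  have hC : (!₂[0, 1, Real.sqrt 2] : E3) ∈ tet := subset_convexHull _ _ (by simp)
  have hD : (!₂[0, -1, Real.sqrt 2] : E3) ∈ tet := subset_convexHull _ _ (by simp)
  have f1 := key _ (one_tri hv0 convex_tet hA hB hC)
  have f2 := key _ (one_tri hv0 convex_tet hA hB hD)
  have f3 := key _ (one_tri hv0 convex_tet hC hD hA)
  have f4 := key _ (one_tri hv0 convex_tet hC hD hB)
  have f5 := key _ (two_tri hv0 convex_tet hA hB hC hD)
  have f6 := key _ (two_tri hv0 convex_tet hA hC hB hD)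
  have f7 := key _ (two_tri hv0 convex_tet hA hD hB hC)
  rw [hv, div_one, ← abs_two, ← abs_div] at f1 f2 f3 f4 f5 f6 f7
  have hs := sqrt2_pos
  have g1 : |v 2 - Real.sqrt 2 * v 1| ≤ X := by
    rw [← abs_neg]; refine le_of_eq_of_le (congrArg abs ?_) f1; simp [det3]; ring
  have g2 : |v 2 + Real.sqrt 2 * v 1| ≤ X := by
    refine le_of_eq_of_le (congrArg abs ?_) f2; simp [det3]; ring
  have g3 : |v 2 + Real.sqrt 2 * v 0| ≤ X := by
    refine le_of_eq_of_le (congrArg abs ?_) f3; simp [det3]; ring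
  have g4 : |v 2 - Real.sqrt 2 * v 0| ≤ X := by
    rw [← abs_neg]; refine le_of_eq_of_le (congrArg abs ?_) f4; simp [det3]; ring
  have g5 : |2 * v 2| ≤ X := by
    rw [← abs_neg]; refine le_of_eq_of_le (congrArg abs ?_) f5; simp [det3]; ring
  have g6 : |Real.sqrt 2 * v 0 + Real.sqrt 2 * v 1| ≤ X := by
    rw [← abs_neg]; refine le_of_eq_of_le (congrArg abs ?_) f6; simp [det3]; ring
  have g7 : |Real.sqrt 2 * v 0 - Real.sqrt 2 * v 1| ≤ X := by
    refine le_of_eq_of_le (congrArg abs ?_) f7; simp [det3]; ring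
  have k1 := abs_add_le_of g2 g1
  have k2 := abs_add_le_of g3 g4
  have k3 := abs_add_le_of g6 g7
  rw [abs_mul, abs_of_pos hs] at k1 k2
  rw [abs_mul, abs_mul, abs_of_pos hs, ← mul_add] at k3
  rw [abs_mul, abs_two] at g5
  refine min_alg |v 0| |v 1| |v 2| X (abs_nonneg _) (abs_nonneg _) (abs_nonneg _) ?_ k2 k1 g5 k3
  simp only [sq_abs]
  rw [← normsq3, hv]; norm_num

theorem minProj (v : E3) (hv : ‖v‖ = 1) :
    ENNReal.ofReal (Real.sqrt 2) ≤ μHE[2] (proj v '' tet) :=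
  ENNReal.ofReal_le_of_le_toReal (minProj_real v hv)

theorem norm_e0 : ‖(!₂[1, 0, 0] : E3)‖ = 1 := by
  rw [← sq_eq_sq₀ (norm_nonneg _) zero_le_one, normsq3]; simp

theorem minProj_eq : μHE[2] (proj !₂[1, 0, 0] '' tet) = ENNReal.ofReal (Real.sqrt 2) := by
  apply le_antisymm _ (minProj _ norm_e0)
  have hs := sqrt2_pos
  have h : proj !₂[1, 0, 0] '' tet ⊆
      convexHull ℝ ({0, !₂[0, 1, Real.sqrt 2], !₂[0, -1, Real.sqrt 2]} : Set E3) := by
    rintro _ ⟨y, hy, rfl⟩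
    obtain ⟨h1, h2⟩ := tet_sub hy
    have h3 := abs_le.mp h2
    have h4 := abs_nonneg (y 0)
    rw [mem_hull3]
    refine ⟨(y 2 / Real.sqrt 2 + y 1) / 2, (y 2 / Real.sqrt 2 - y 1) / 2, by linarith, by linarith,
      by linarith, ?_⟩
    rw [proj_unit norm_e0]
    ext j
    fin_cases j
    · simp [inner3]
    · simp [inner3]; ring
    · simp [inner3]; field_simp; ring
  refine (measure_mono h).trans ?_
  rw [area_tri]
  apply ENNReal.ofReal_le_ofReal
  simp only [sub_zero, gram, normsq3, inner3]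
  simp
  rw [div_le_iff₀ (by norm_num)]
  apply Real.sqrt_le_iff.mpr
  refine ⟨by positivity, ?_⟩
  rw [mul_pow, sqrt2_sq]; norm_num

theorem proj_fun_unit {v : E3} (hv : ‖v‖ = 1) : (fun y : E3 => y - inner ℝ y v • v) = proj v := by
  ext1 y; rw [proj_unit hv]

end Crest.Agent.H7Cyl
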