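import Crest.Agent.H7Cyl.SqCov

set_option autoImplicit false
open MeasureTheory Set
open scoped ENNReal

namespace Crest.Agent.H7Cyl

theorem ruled_piece_aux {ρ η J0 J1 J2 d : ℝ} (hη : 0 < η) (hη1 : η ≤ 1) (hJ : J0 ≤ 1) (h1 : 0 ≤ J1)
    (h2 : 0 ≤ J2) (h3 : J1 ≤ J0 + η) (h4 : J2 ≤ J0 + η) (hd : 0 ≤ d) :
    ρ ^ 2 * (1 + 2 * (η / 8)) ^ 2 * d / 2 * (J1 + J2) ≤ ρ ^ 2 * (d * (J0 + 3 * η)) := by
  have c5 : (1 + 2 * (η / 8)) ^ 2 ≤ 1 + η := by nlinarith
  have c7 : (1 + 2 * (η / 8)) ^ 2 * (J1 + J2) ≤ (1 + η) * (2 * (J0 + η)) :=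
    mul_le_mul c5 (by linarith) (by linarith) (by positivity)
  have c8 : (1 + η) * (2 * (J0 + η)) ≤ 2 * (J0 + 3 * η) := by nlinarith
  have c9 : 0 ≤ ρ ^ 2 * d := by positivity
  nlinarith

theorem ruled_piece (h : ℝ) {V : E2 → E2} {p0 : E2} {A : E2 →L[ℝ] E2} (hA : HasStrictFDerivAt V A p0)
    {L : ℝ} (hL : 0 < L) (htr : LinearMap.trace ℝ E2 A.toLinearMap = 0)
    (hd1 : -(L ^ 2)⁻¹ < LinearMap.det A.toLinearMap) (hd2 : LinearMap.det A.toLinearMap ≤ 0)
    {η : ℝ} (hη : 0 < η) (hη1 : η ≤ 1) :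
    ∃ δ : ℝ, 0 < δ ∧ ∀ K : Set E2, IsCompact K → K ⊆ Metric.ball p0 δ →
      SC h (ruled V L K) ((volume K).toReal * (J h (V p0) + 3 * η)) := by
  set θ := η / 8 with hθ
  have hθ0 : 0 < θ := by positivity
  obtain ⟨f1, f2, μ, t, hdet, hμ, hμL, ht, e1, e2⟩ :=
    shape A.toLinearMap hL (θ := θ / (2 * L)) (by positivity) htr hd1 hd2
  simp only [ContinuousLinearMap.coe_coe] at e1 e2
  set d := f1 0 * f2 1 - f1 1 * f2 0 with hd
  have hdet' : LinearMap.det (lin2 f1 f2) ≠ 0 := by rw [det_lin2]; exact hdet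
  set Be : E2 ≃L[ℝ] E2 := (LinearMap.equivOfDetNeZero (lin2 f1 f2) hdet').toContinuousLinearEquiv
    with hBe
  have hB : ∀ p, Be p = p 0 • f1 + p 1 • f2 := fun p => rfl
  set C := ‖(Be.symm : E2 →L[ℝ] E2)‖ with hC
  have hC0 : 0 ≤ C := norm_nonneg _
  set N := ‖f1‖ + ‖f2‖ with hN
  have hN0 : 0 ≤ N := by positivity
  set κ := θ / (2 * L) / (C * N + 1) with hκ
  have hκ0 : 0 < κ := by positivity
  have hκ1 : C * κ * N ≤ θ / (2 * L) := by
    have : κ * (C * N + 1) = θ / (2 * L) := by rw [hκ]; field_simp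
    nlinarith
  obtain ⟨δ3, hδ3, H3⟩ := Metric.eventually_nhds_iff.mp (hA.isLittleO.bound hκ0)
  obtain ⟨δ1, hδ1, H1⟩ := Metric.continuousAt_iff.mp
    ((continuous_J h).continuousAt (x := V p0)) η hη
  obtain ⟨δ2, hδ2, H2⟩ := Metric.continuousAt_iff.mp hA.continuousAt (δ1 / 2) (by positivity)
  set δ := min δ2 δ3 / 2 with hδ
  have hδ0 : 0 < δ := by have := lt_min hδ2 hδ3; positivity
  have hδa : 2 * δ ≤ δ2 := by have := min_le_left δ2 δ3; linarith
  have hδb : 2 * δ ≤ δ3 := by have := min_le_right δ2 δ3; linarith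
  refine ⟨δ, hδ0, fun K hK hKδ => ?_⟩
  set K' := Be.symm '' K with hK'
  have hK'c : IsCompact K' := hK.image Be.symm.continuous
  have hvol : (volume K).toReal = |d| * (volume K').toReal := by
    have : K = lin2 f1 f2 '' K' := by
      rw [hK', image_image]
      have : ∀ p, lin2 f1 f2 (Be.symm p) = p := fun p => Be.apply_symm_apply p
      simp only [this, image_id']
    rw [this, Measure.addHaar_image_linearMap, det_lin2, ENNReal.toReal_mul,
      ENNReal.toReal_ofReal (abs_nonneg _)]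
  set J0 := J h (V p0) with hJ0
  have hJ00 : 0 ≤ J0 := J_nonneg _ _
  have hJ01 : J0 ≤ 1 := J_le_one _ _
  apply SC.of_forall (C := |d| * (J0 + 3 * η)) (by positivity)
  intro η' hη' _
  obtain ⟨ρ, hρ, hρ1, F, h1, h2, h3⟩ := grid hK'c hη'
    (r0 := min (δ / (N + 1)) (δ1 / (2 * (μ * N + 1)))) (by positivity)
  have hρa : ρ * N < δ := by
    have := hρ1.trans (min_le_left _ _)
    rw [le_div_iff₀ (by positivity)] at this
    nlinarith
  have hρb : ρ * μ * N < δ1 / 2 := by
    have := hρ1.trans (min_le_right _ _)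
    rw [le_div_iff₀ (by positivity)] at this
    nlinarith
  have key : ∀ k, ∀ p ∈ K, Be.symm p ∈ cellO ρ k → ∃ x ∈ Icc (0 : ℝ) 1, ∃ y ∈ Icc (0 : ℝ) 1,
      p = Be (corner ρ k) + ρ • (x • f1 + y • f2) ∧ ‖p - Be (corner ρ k)‖ ≤ ρ * N ∧
      dist (Be (corner ρ k)) p0 < 2 * δ := by
    intro k p hp hk
    obtain ⟨x, hx, y, hy, e⟩ := mem_cellC hρ (cellO_sub _ _ hk)
    have e' : p = Be (corner ρ k) + ρ • (x • f1 + y • f2) := by
      have := congrArg Be e
      rw [Be.apply_symm_apply, map_add, map_smul, hB (!₂[x, y])] at this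
      simpa using this
    have hn : ‖p - Be (corner ρ k)‖ ≤ ρ * N := by
      rw [e', add_sub_cancel_left, norm_smul, Real.norm_of_nonneg hρ.le]
      apply mul_le_mul_of_nonneg_left _ hρ.le
      refine (norm_add_le _ _).trans (add_le_add ?_ ?_)
      · rw [norm_smul, Real.norm_of_nonneg hx.1]; nlinarith [hx.2, norm_nonneg f1]
      · rw [norm_smul, Real.norm_of_nonneg hy.1]; nlinarith [hy.2, norm_nonneg f2]
    refine ⟨x, hx, y, hy, e', hn, ?_⟩
    have a1 : dist p p0 < δ := hKδ hp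
    have a2 := dist_triangle_left (Be (corner ρ k)) p0 p
    rw [dist_eq_norm p (Be _)] at a2
    linarith
  refine (SC.biUnion F _ _ fun k _ => SC.tile h (Be (corner ρ k)) f1 f2 (V (Be (corner ρ k)))
    hρ hμ hθ0 hμL).mono ?_ ?_
  · rintro ⟨s, w⟩ ⟨p, hp, hs, hw⟩
    obtain ⟨k, hk, hpk⟩ := h1 _ (mem_image_of_mem _ hp)
    simp only [mem_iUnion]
    refine ⟨k, hk, hs, ?_⟩
    obtain ⟨x, hx, y, hy, ep, hn, hz⟩ := key k p hp hpk
    set z := Be (corner ρ k) with hzdef
    have herr := H3 (y := (p, z)) (by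
      rw [Prod.dist_eq, max_lt_iff]
      have : dist p p0 < δ := hKδ hp
      constructor <;> simp only <;> linarith)
    simp only at herr
    set err := V p - V z - A (p - z) with herrdef
    set e := ρ⁻¹ • Be.symm err with he
    have hen : ‖e‖ ≤ θ / (2 * L) := by
      rw [he, norm_smul, Real.norm_of_nonneg (by positivity)]
      have b1 : ‖Be.symm err‖ ≤ C * ‖err‖ := (Be.symm : E2 →L[ℝ] E2).le_opNorm err
      have b2 : ‖err‖ ≤ κ * (ρ * N) := herr.trans (mul_le_mul_of_nonneg_left hn hκ0.le)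
      have b3 : ‖Be.symm err‖ ≤ ρ * (C * κ * N) := by nlinarith
      rw [inv_mul_le_iff₀ hρ]
      nlinarith
    have he0 : |e 0| ≤ θ / (2 * L) := (PiLp.norm_apply_le e 0).trans hen
    have he1 : |e 1| ≤ θ / (2 * L) := (PiLp.norm_apply_le e 1).trans hen
    have hLθ : L * (θ / (2 * L)) = θ / 2 := by field_simp
    have herr2 : err = ρ • (e 0 • f1 + e 1 • f2) := by
      rw [← hB, he, map_smul, Be.apply_symm_apply, smul_smul, mul_inv_cancel₀ hρ.ne', one_smul]
    refine ⟨x, hx, y, hy, t * y + e 0, e 1, ?_, ?_, ?_⟩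
    · have : |t * y + e 0| ≤ θ / (2 * L) + θ / (2 * L) := by
        refine (abs_add_le _ _).trans (add_le_add ?_ he0)
        rw [abs_mul, abs_of_nonneg hy.1]
        nlinarith [hy.1, hy.2, abs_nonneg t]
      nlinarith
    · nlinarith
    · simp only at hw ⊢
      have hVp : V p = V z + ρ • ((μ * x + (t * y + e 0)) • f1 + (-μ * y + e 1) • f2) := by
        have : V p = V z + A (p - z) + err := by rw [herrdef]; abel
        rw [this, herr2]
        have : p - z = ρ • (x • f1 + y • f2) := by rw [ep]; abel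
        rw [this, map_smul, map_add, map_smul, map_smul, e1, e2]
        module
      rw [hw, hVp]
      congr 1
  · have hb : ∀ k ∈ F, ρ ^ 2 * (1 + 2 * θ) ^ 2 * |d| / 2 *
        (J h (V (Be (corner ρ k))) + J h (V (Be (corner ρ k)) + (ρ * μ) • (f1 - f2))) ≤
        ρ ^ 2 * (|d| * (J0 + 3 * η)) := by
      intro k hk
      obtain ⟨_, ⟨p, hp, rfl⟩, hpk⟩ := h2 k hk
      obtain ⟨x, hx, y, hy, ep, hn, hz⟩ := key k p hp hpk
      set z := Be (corner ρ k) with hzdef
      have c1 : dist (V z) (V p0) < δ1 / 2 := H2 (by linarith)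
      have c2 : dist (V z + (ρ * μ) • (f1 - f2)) (V p0) < δ1 := by
        have := dist_triangle (V z + (ρ * μ) • (f1 - f2)) (V z) (V p0)
        rw [dist_eq_norm (V z + _) (V z), add_sub_cancel_left, norm_smul,
          Real.norm_of_nonneg (by positivity)] at this
        have : ρ * μ * ‖f1 - f2‖ ≤ ρ * μ * N :=
          mul_le_mul_of_nonneg_left (norm_sub_le _ _) (by positivity)
        linarith
      have c3 := H1 (show dist (V z) (V p0) < δ1 by linarith)
      have c4 := H1 c2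
      rw [Real.dist_eq, abs_lt] at c3 c4
      exact ruled_piece_aux hη hη1 hJ01 (J_nonneg _ _) (J_nonneg _ _) (by linarith [c3.2])
        (by linarith [c4.2]) (abs_nonneg d)
    refine (Finset.sum_le_sum hb).trans ?_
    rw [Finset.sum_const, nsmul_eq_mul, ← mul_assoc, hvol]
    have : 0 ≤ |d| * (J0 + 3 * η) := by positivity
    nlinarith

theorem global (h : ℝ) {D : Set E2} (hD : IsCompact D) {V : E2 → E2} {U : Set E2}
    (hU : IsOpen U) (hDU : D ⊆ U) (hV : ContDiffOn ℝ 1 V U) {L : ℝ} (hL : 0 < L)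
    (htr : ∀ p ∈ D, LinearMap.trace ℝ _ (fderiv ℝ V p).toLinearMap = 0)
    (hdet : ∀ p ∈ D, -(L ^ 2)⁻¹ < LinearMap.det (fderiv ℝ V p).toLinearMap ∧
      LinearMap.det (fderiv ℝ V p).toLinearMap ≤ 0) :
    SC h (ruled V L D) (∫ p in D, J h (V p)) := by
  apply SC.of_forall (C := 4 * (volume D).toReal) (by positivity)
  intro η hη hη1
  have hat : ∀ p ∈ D, ContDiffAt ℝ 1 V p := fun p hp => hV.contDiffAt (hU.mem_nhds (hDU hp))
  have H : ∀ p0 : D, ∃ δ : ℝ, 0 < δ ∧ (∀ K : Set E2, IsCompact K → K ⊆ Metric.ball p0.1 δ →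
      SC h (ruled V L K) ((volume K).toReal * (J h (V p0) + 3 * η))) ∧
      ∀ p ∈ Metric.ball p0.1 δ, J h (V p0) ≤ J h (V p) + η := by
    rintro ⟨p0, hp0⟩
    obtain ⟨δ, hδ, H⟩ := ruled_piece h ((hat p0 hp0).hasStrictFDerivAt one_ne_zero) hL (htr p0 hp0)
      (hdet p0 hp0).1 (hdet p0 hp0).2 hη hη1
    have hc : ContinuousAt (fun p => J h (V p)) p0 :=
      (continuous_J h).continuousAt.comp (hat p0 hp0).continuousAt
    obtain ⟨δ', hδ', H'⟩ := Metric.continuousAt_iff.mp hc η hη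
    refine ⟨min δ δ', lt_min hδ hδ', fun K hK hKδ =>
      H K hK (hKδ.trans (Metric.ball_subset_ball (min_le_left _ _))), fun p hp => ?_⟩
    have := H' (lt_of_lt_of_le (Metric.mem_ball.mp hp) (min_le_right _ _))
    rw [Real.dist_eq, abs_lt] at this
    simp only
    linarith
  choose δ hδ H1 H2 using H
  obtain ⟨r, hr, H3⟩ := lebesgue_number_lemma_of_metric hD
    (c := fun p0 : D => Metric.ball p0.1 (δ p0)) (fun _ => Metric.isOpen_ball)
    (fun p hp => mem_iUnion.mpr ⟨⟨p, hp⟩, Metric.mem_ball_self (hδ _)⟩)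
  obtain ⟨ρ, hρ, hρ1, F, h1, h2, -⟩ := grid hD one_pos (r0 := r / 4) (by positivity)
  have hint : IntegrableOn (fun p => J h (V p) + 4 * η) D := by
    apply ContinuousOn.integrableOn_compact hD
    exact ((continuous_J h).comp_continuousOn (hV.continuousOn.mono hDU)).add continuousOn_const
  have hint' : IntegrableOn (fun p => J h (V p)) D := by
    apply ContinuousOn.integrableOn_compact hD
    exact ((continuous_J h).comp_continuousOn (hV.continuousOn.mono hDU))
  have hmeas : ∀ k, MeasurableSet (D ∩ cellO ρ k) := fun k =>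
    hD.measurableSet.inter (measurableSet_cellO ρ k)
  have hpiece : ∀ k ∈ F, SC h (ruled V L (D ∩ cellC ρ k))
      (∫ p in D ∩ cellO ρ k, (J h (V p) + 4 * η)) := by
    intro k hk
    obtain ⟨q, hq, hqk⟩ := h2 k hk
    obtain ⟨p0, hp0⟩ := H3 q hq
    have hsub : D ∩ cellC ρ k ⊆ Metric.ball p0.1 (δ p0) := by
      intro p hp
      apply hp0
      have := dist_cell hp.2 (cellO_sub _ _ hqk)
      rw [Metric.mem_ball]; linarith
    refine (H1 p0 _ (hD.inter_right (isClosed_cellC ρ k)) hsub).mono subset_rfl ?_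
    rw [volume_inter_cell hρ]
    have hfin : volume (D ∩ cellO ρ k) ≠ ⊤ :=
      ((measure_mono inter_subset_left).trans_lt hD.measure_lt_top).ne
    calc (volume (D ∩ cellO ρ k)).toReal * (J h (V p0) + 3 * η)
        = ∫ _ in D ∩ cellO ρ k, (J h (V p0) + 3 * η) := by
          rw [setIntegral_const, smul_eq_mul]; rfl
      _ ≤ _ := by
          apply setIntegral_mono_on (integrableOn_const hfin) (hint.mono_set inter_subset_left)
            (hmeas k)
          intro p hp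
          have := H2 p0 p (hsub ⟨hp.1, cellO_sub _ _ hp.2⟩)
          linarith
  refine (SC.biUnion F _ _ hpiece).mono ?_ ?_
  · rintro z ⟨p, hp, hz⟩
    obtain ⟨k, hk, hpk⟩ := h1 p hp
    simp only [mem_iUnion]
    exact ⟨k, hk, p, ⟨hp, cellO_sub _ _ hpk⟩, hz⟩
  · rw [← integral_biUnion_finset F (fun k _ => hmeas k)
      (fun k _ l _ hkl => (disjoint_cellO hρ hkl).mono inter_subset_right inter_subset_right)
      (fun k _ => hint.mono_set inter_subset_left)]
    have : (⋃ k ∈ F, D ∩ cellO ρ k) = D := by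
      apply Subset.antisymm (iUnion₂_subset fun _ _ => inter_subset_left)
      intro p hp
      obtain ⟨k, hk, hpk⟩ := h1 p hp
      simp only [mem_iUnion]
      exact ⟨k, hk, hp, hpk⟩
    rw [this, integral_add hint' (integrableOn_const hD.measure_lt_top.ne), setIntegral_const,
      smul_eq_mul]
    apply le_of_eq
    simp only [Measure.real]
    ring

end Crest.Agent.H7Cyl
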