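import Crest.Agent.H7Cyl.MinProj

set_option autoImplicit false
open MeasureTheory Set
open scoped ENNReal

namespace Crest.Agent.H7Cyl

noncomputable def frameLin (f0 f1 f2 : E3) : E3 →ₗ[ℝ] E3 where
  toFun p := p 0 • f0 + p 1 • f1 + p 2 • f2
  map_add' p q := by simp [add_smul]; abel
  map_smul' c p := by simp [smul_add, mul_smul]

theorem exists_similarity (w : Fin 4 → E3) (ℓ : ℝ) (hℓ : 0 < ℓ)
    (hw : ∀ i j, i ≠ j → dist (w i) (w j) = ℓ) :
    ∃ (c : E3) (O : E3 →ₗᵢ[ℝ] E3),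
      convexHull ℝ (range w) = (fun y => c + (ℓ / 2) • O y) '' tet := by
  have hs := sqrt2_pos
  have hs2 := sqrt2_sq
  set a := w 1 - w 0 with ha
  set b := w 2 - w 0 with hb
  set c := w 3 - w 0 with hc
  have d : ∀ i j, i ≠ j → ‖w i - w j‖ ^ 2 = ℓ ^ 2 := fun i j h => by
    rw [← dist_eq_norm, hw i j h]
  have haa : inner ℝ a a = ℓ ^ 2 := by rw [real_inner_self_eq_norm_sq]; exact d 1 0 (by decide)
  have hbb : inner ℝ b b = ℓ ^ 2 := by rw [real_inner_self_eq_norm_sq]; exact d 2 0 (by decide)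
  have hcc : inner ℝ c c = ℓ ^ 2 := by rw [real_inner_self_eq_norm_sq]; exact d 3 0 (by decide)
  have pol : ∀ x y : E3, inner ℝ x x = ℓ ^ 2 → inner ℝ y y = ℓ ^ 2 → ‖x - y‖ ^ 2 = ℓ ^ 2 →
      inner ℝ x y = ℓ ^ 2 / 2 := by
    intro x y hx hy hxy
    rw [norm_sub_sq_real, ← real_inner_self_eq_norm_sq, ← real_inner_self_eq_norm_sq, hx, hy] at hxy
    linarith
  have hab : inner ℝ a b = ℓ ^ 2 / 2 := pol a b haa hbb (by
    rw [ha, hb, sub_sub_sub_cancel_right]; exact d 1 2 (by decide))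
  have hac : inner ℝ a c = ℓ ^ 2 / 2 := pol a c haa hcc (by
    rw [ha, hc, sub_sub_sub_cancel_right]; exact d 1 3 (by decide))
  have hbc : inner ℝ b c = ℓ ^ 2 / 2 := pol b c hbb hcc (by
    rw [hb, hc, sub_sub_sub_cancel_right]; exact d 2 3 (by decide))
  have hba : inner ℝ b a = ℓ ^ 2 / 2 := by rw [real_inner_comm]; exact hab
  have hca : inner ℝ c a = ℓ ^ 2 / 2 := by rw [real_inner_comm]; exact hac
  have hcb : inner ℝ c b = ℓ ^ 2 / 2 := by rw [real_inner_comm]; exact hbc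
  set f0 : E3 := (-1 / ℓ) • a with hf0
  set f1 : E3 := (1 / ℓ) • (b - c) with hf1
  set f2 : E3 := (1 / (ℓ * Real.sqrt 2)) • (b + c - a) with hf2
  have h00 : inner ℝ f0 f0 = 1 := by
    simp only [hf0, inner_smul_left, inner_smul_right, haa]; simp; field_simp
  have h11 : inner ℝ f1 f1 = 1 := by
    simp only [hf1, inner_smul_left, inner_smul_right, inner_sub_left, inner_sub_right, hbb, hcc,
      hbc, hcb]; simp; field_simp; ring
  have h22 : inner ℝ f2 f2 = 1 := by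
    simp only [hf2, inner_smul_left, inner_smul_right, inner_sub_left, inner_sub_right,
      inner_add_left, inner_add_right, haa, hbb, hcc, hab, hba, hac, hca,
      hbc, hcb]; simp; field_simp; rw [hs2]; ring
  have h01 : inner ℝ f0 f1 = 0 := by
    simp only [hf0, hf1, inner_smul_left, inner_smul_right, inner_sub_right, hab, hac]; simp
  have h02 : inner ℝ f0 f2 = 0 := by
    simp only [hf0, hf2, inner_smul_left, inner_smul_right, inner_sub_right, inner_add_right,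
      hab, hac, haa]; simp; right; ring
  have h12 : inner ℝ f1 f2 = 0 := by
    simp only [hf1, hf2, inner_smul_left, inner_smul_right, inner_sub_right, inner_add_right,
      inner_sub_left, hbb, hcc, hba, hca, hbc, hcb]; simp; right; ring
  have h10 : inner ℝ f1 f0 = 0 := by rw [real_inner_comm]; exact h01
  have h20 : inner ℝ f2 f0 = 0 := by rw [real_inner_comm]; exact h02
  have h21 : inner ℝ f2 f1 = 0 := by rw [real_inner_comm]; exact h12
  let O : E3 →ₗᵢ[ℝ] E3 := (frameLin f0 f1 f2).isometryOfInner (by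
    intro x y
    simp only [frameLin, LinearMap.coe_mk, AddHom.coe_mk, inner_add_left, inner_add_right,
      inner_smul_left, inner_smul_right, h00, h11, h22, h01, h02, h12, h10, h20, h21, inner3 x y]
    simp; ring)
  have hO : ∀ p : E3, O p = p 0 • f0 + p 1 • f1 + p 2 • f2 := fun p => rfl
  refine ⟨w 0 + (1 / 2 : ℝ) • a, O, ?_⟩
  let Φ : E3 →ᵃ[ℝ] E3 := AffineMap.const ℝ E3 (w 0 + (1 / 2 : ℝ) • a) +
    ((ℓ / 2) • O.toLinearMap).toAffineMap
  have hΦ : (fun y => w 0 + (1 / 2 : ℝ) • a + (ℓ / 2) • O y) = Φ := by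
    ext1 y; simp [Φ]
  rw [hΦ, tet, AffineMap.image_convexHull, ← hΦ]
  congr 1
  have e1 : w 1 = w 0 + a := by simp [ha]
  have e2 : w 2 = w 0 + b := by simp [hb]
  have e3 : w 3 = w 0 + c := by simp [hc]
  have hr : range w = {w 0, w 1, w 2, w 3} := by
    ext x; simp [Fin.exists_fin_succ, eq_comm]
  rw [hr, image_insert_eq, image_insert_eq, image_insert_eq, image_singleton]
  simp only [hO]
  have hl : ℓ ≠ 0 := hℓ.ne'
  have hs' : Real.sqrt 2 ≠ 0 := hs.ne'
  congr 1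
  · simp [hf0, smul_smul]; match_scalars <;> field_simp <;> ring
  congr 1
  · rw [e1]; simp [hf0, smul_smul]; match_scalars <;> field_simp <;> ring
  congr 1
  · rw [e2]; simp [hf1, hf2, smul_smul]; match_scalars <;> field_simp <;> ring
  congr 1
  · rw [e3]; simp [hf1, hf2, smul_smul]; match_scalars <;> field_simp <;> ring

theorem area_similarity (c : E3) (lam : ℝ) (hlam : 0 < lam) (O : E3 →ₗᵢ[ℝ] E3) (S : Set E3) :
    μHE[2] ((fun y => c + lam • O y) '' S) = ENNReal.ofReal (lam ^ 2) * μHE[2] S := by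
  have : (fun y => c + lam • O y) '' S = (fun y => c + y) '' ((fun y => lam • y) '' (O '' S)) := by
    simp [image_image]
  rw [this, (isometry_add_left c).euclideanHausdorffMeasure_image, image_smul,
    Measure.euclideanHausdorffMeasure_smul₀ 2 hlam.ne', O.isometry.euclideanHausdorffMeasure_image]
  rw [ENNReal.smul_def, smul_eq_mul]
  congr 1
  rw [ENNReal.ofReal_pow hlam.le, ENNReal.coe_pow, ← Real.enorm_eq_ofReal hlam.le]
  rfl

theorem minProj_sim (c : E3) (lam : ℝ) (hlam : 0 < lam) (O : E3 →ₗᵢ[ℝ] E3) (v : E3)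
    (hv : ‖v‖ = 1) :
    lam ^ 2 * Real.sqrt 2 ≤ (μHE[2] (proj v '' ((fun y => c + lam • O y) '' tet))).toReal := by
  obtain ⟨v', rfl⟩ : ∃ v', O v' = v := (O.toLinearIsometryEquiv rfl).surjective v
  have hv' : ‖v'‖ = 1 := by simpa using hv
  have : proj (O v') '' ((fun y => c + lam • O y) '' tet) =
      (fun y => proj (O v') c + lam • O y) '' (proj v' '' tet) := by
    rw [image_image, image_image]
    apply image_congr
    intro y _
    rw [proj_add, proj_smul]
    simp [proj]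
  rw [this, area_similarity _ _ hlam, ENNReal.toReal_mul, ENNReal.toReal_ofReal (sq_nonneg _)]
  exact mul_le_mul_of_nonneg_left (minProj_real v' hv') (sq_nonneg _)

theorem sum_range_real (n : ℕ) : ∑ j ∈ Finset.range n, (j : ℝ) = n * (n - 1) / 2 := by
  induction n with
  | zero => simp
  | succ n ih => rw [Finset.sum_range_succ, ih]; push_cast; ring

theorem TriCov.par {S : Set E3} {m : ℕ} {A : ℝ} (h : TriCov S m A) (n : ℕ) (hn : 0 < n) :
    ∃ (k : ℕ) (u c a b : Fin k → E3), (∀ i, ‖u i‖ = 1) ∧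
      (∀ i, inner ℝ (c i) (u i) = 0 ∧ inner ℝ (a i) (u i) = 0 ∧ inner ℝ (b i) (u i) = 0) ∧
      S ⊆ ⋃ i, {x : E3 | ∃ s ∈ Icc (0 : ℝ) 1, ∃ t ∈ Icc (0 : ℝ) 1, ∃ τ : ℝ,
        x = c i + s • a i + t • b i + τ • u i} ∧
      ∑ i, gram (a i) (b i) = A * (1 + 1 / n) := by
  obtain ⟨u, p, q, r, h1, h2, h3, h4⟩ := h
  have hnr : (0 : ℝ) < n := by exact_mod_cast hn
  let e : Fin (m * n) ≃ Fin m × Fin n := finProdFinEquiv.symm
  refine ⟨m * n, fun k => u (e k).1,
    fun k => p (e k).1 + (((e k).2 : ℕ) / n : ℝ) • (r (e k).1 - p (e k).1),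
    fun k => (1 - ((e k).2 : ℕ) / n : ℝ) • (q (e k).1 - p (e k).1),
    fun k => (1 / n : ℝ) • (r (e k).1 - p (e k).1), fun k => h1 _, ?_, ?_, ?_⟩
  · intro k
    simp [inner_add_left, inner_smul_left, inner_sub_left, h2 (e k).1]
  · intro x hx
    obtain ⟨i, b, hb, τ, rfl⟩ := mem_iUnion.mp (h3 hx)
    rw [mem_hull3] at hb
    obtain ⟨s, t, hs, ht, hst, rfl⟩ := hb
    obtain ⟨j, hj1, hj2⟩ : ∃ j : Fin n, ((j : ℕ) : ℝ) ≤ t * n ∧ t * n ≤ (j : ℕ) + 1 := by
      have h0 : 0 ≤ t * n := by positivity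
      by_cases h : ⌊t * n⌋₊ < n
      · exact ⟨⟨_, h⟩, Nat.floor_le h0, (Nat.lt_floor_add_one _).le⟩
      · push Not at h
        have h1 : (n : ℝ) ≤ t * n := le_trans (by exact_mod_cast h) (Nat.floor_le h0)
        refine ⟨⟨n - 1, by omega⟩, ?_, ?_⟩
        · simp only; rw [Nat.cast_sub (by omega)]; simp; linarith
        · simp only; rw [Nat.cast_sub (by omega)]; simp; nlinarith
    have hj3 : ((j : ℕ) : ℝ) < n := by exact_mod_cast j.2
    have hj4 : 0 < 1 - ((j : ℕ) : ℝ) / n := by rw [sub_pos, div_lt_one hnr]; exact hj3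
    have hj5 : ((j : ℕ) : ℝ) / n ≤ t := by rw [div_le_iff₀ hnr]; exact hj1
    refine mem_iUnion.mpr ⟨e.symm (i, j), s / (1 - ((j : ℕ) : ℝ) / n), ⟨by positivity, ?_⟩,
      t * n - (j : ℕ), ⟨by linarith, by linarith⟩, τ, ?_⟩
    · rw [div_le_one hj4]; linarith
    · simp only [Equiv.apply_symm_apply, smul_smul]
      rw [div_mul_cancel₀ _ hj4.ne']
      have : (t * n - (j : ℕ)) * (1 / n : ℝ) = t - ((j : ℕ) : ℝ) / n := by field_simp
      rw [this]
      module
  · rw [← h4, ← e.symm.sum_comp, Fintype.sum_prod_type, Finset.sum_mul]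
    refine Finset.sum_congr rfl fun i _ => ?_
    simp only [Equiv.apply_symm_apply, gram_smul]
    rw [← Finset.sum_mul]
    have : ∑ j : Fin n, |(1 - ((j : ℕ) : ℝ) / n) * (1 / n : ℝ)| = (1 + 1 / n) / 2 := by
      have : ∀ j : Fin n, |(1 - ((j : ℕ) : ℝ) / n) * (1 / n : ℝ)| =
          1 / n - ((j : ℕ) : ℝ) * (1 / n ^ 2) := by
        intro j
        have hj3 : ((j : ℕ) : ℝ) < n := by exact_mod_cast j.2
        have hj4 : 0 < 1 - ((j : ℕ) : ℝ) / n := by rw [sub_pos, div_lt_one hnr]; exact hj3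
        rw [abs_of_pos (by positivity)]; field_simp
      simp only [this]
      rw [Finset.sum_sub_distrib, ← Finset.sum_mul,
        Fin.sum_univ_eq_sum_range (fun j : ℕ => (j : ℝ)) n, sum_range_real]
      simp; field_simp; ring
    rw [this]; ring

theorem TriCov.opens {S : Set E3} {m : ℕ} {A : ℝ} (h : TriCov S m A) (η : ℝ) (hη : 0 < η) :
    ∃ (u : Fin m → E3) (B : Fin m → Set E3), (∀ i, ‖u i‖ = 1) ∧
      (∀ i, Bornology.IsBounded (B i) ∧ ∃ O : Set E3, IsOpen O ∧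
        B i = O ∩ {x | inner ℝ x (u i) = 0}) ∧
      S ⊆ ⋃ i, {x : E3 | ∃ y ∈ B i, ∃ τ : ℝ, x = y + τ • u i} ∧
      ∑ i, (μHE[2] (B i)).toReal ≤ A + η := by
  obtain ⟨u, p, q, r, h1, h2, h3, h4⟩ := h
  have hu : ∀ i, u i ≠ 0 := by
    intro i h0
    have := h1 i
    rw [h0, norm_zero] at this
    exact zero_ne_one this
  have key : ∀ i, ∃ B' : Set E3, convexHull ℝ {p i, q i, r i} ⊆ B' ∧ Bornology.IsBounded B' ∧
      (∃ O : Set E3, IsOpen O ∧ B' = O ∩ {x | inner ℝ x (u i) = 0}) ∧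
      (μHE[2] B').toReal ≤ (μHE[2] (convexHull ℝ ({p i, q i, r i} : Set E3))).toReal +
        η / (m + 1) := by
    intro i
    apply exists_open_base (hu i) ((Set.toFinite _).isCompact_convexHull ℝ).isBounded _
      (by positivity)
    intro x hx
    rw [mem_hull3] at hx
    obtain ⟨s, t, -, -, -, rfl⟩ := hx
    simp [inner_add_left, inner_smul_left, inner_sub_left, h2 i]
  choose B hB1 hB2 hB3 hB4 using key
  refine ⟨u, B, h1, fun i => ⟨hB2 i, hB3 i⟩, ?_, ?_⟩
  · intro x hx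
    obtain ⟨i, b, hb, τ, rfl⟩ := mem_iUnion.mp (h3 hx)
    exact mem_iUnion.mpr ⟨i, b, hB1 i hb, τ, rfl⟩
  · refine (Finset.sum_le_sum fun i _ => hB4 i).trans ?_
    simp only [area_tri_toReal]
    rw [Finset.sum_add_distrib, h4]
    simp only [Finset.sum_const, Finset.card_univ, Fintype.card_fin, nsmul_eq_mul]
    have : (m : ℝ) * (η / (m + 1)) ≤ η := by
      rw [mul_div_assoc', div_le_iff₀ (by positivity)]; nlinarith
    linarith

theorem sum_div_lt {k : ℕ} (a b : Fin k → ℝ) (M : ℝ) (hM : 0 < M) (ha : ∀ i, 0 ≤ a i)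
    (hb : ∀ i, M ≤ b i) (h : ∑ i, a i < M / 2) : ∑ i, a i / b i < 1 / 2 := by
  calc ∑ i, a i / b i ≤ ∑ i, a i / M :=
        Finset.sum_le_sum fun i _ => div_le_div_of_nonneg_left (ha i) hM (hb i)
    _ = (∑ i, a i) / M := by rw [Finset.sum_div]
    _ < 1 / 2 := by rw [div_lt_iff₀ hM]; linarith

end Crest.Agent.H7Cyl
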