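import Crest.Agent.H7Cyl.Grid

set_option autoImplicit false
open MeasureTheory Set
open scoped ENNReal

namespace Crest.Agent.H7Cyl

noncomputable def J (h : ℝ) (g : E2) : ℝ := 1 / Real.sqrt (1 + (g 0) ^ 2 + h ^ 2 * (g 1) ^ 2)

theorem J_nonneg (h : ℝ) (g : E2) : 0 ≤ J h g := by unfold J; positivity

theorem J_le_one (h : ℝ) (g : E2) : J h g ≤ 1 := by
  unfold J
  apply div_le_one_of_le₀ _ (Real.sqrt_nonneg _)
  rw [Real.one_le_sqrt]
  nlinarith [sq_nonneg (g 0), mul_nonneg (sq_nonneg h) (sq_nonneg (g 1))]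

theorem continuous_J (h : ℝ) : Continuous (J h) := by
  unfold J
  apply Continuous.div continuous_const (by fun_prop)
  intro g
  positivity

def SC (h : ℝ) (Z : Set (ℝ × E2)) (x : ℝ) : Prop :=
  ∀ ε : ℝ, 0 < ε → ∃ l : List (E2 × ℝ × E2), (∀ t ∈ l, 0 < t.2.1) ∧
    (∀ z ∈ Z, ∃ t ∈ l, ∃ x ∈ Icc (0 : ℝ) 1, ∃ y ∈ Icc (0 : ℝ) 1,
      z.2 = t.1 + t.2.1 • !₂[x, y] + z.1 • t.2.2) ∧
    (l.map (fun t => t.2.1 ^ 2 * J h t.2.2)).sum ≤ x + ε

theorem SC.mono {h : ℝ} {Z Z' : Set (ℝ × E2)} {x x' : ℝ} (H : SC h Z x) (hZ : Z' ⊆ Z)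
    (hx : x ≤ x') : SC h Z' x' := by
  intro ε hε
  obtain ⟨l, h1, h2, h3⟩ := H ε hε
  exact ⟨l, h1, fun z hz => h2 z (hZ hz), by linarith⟩

theorem SC.union {h : ℝ} {Z Z' : Set (ℝ × E2)} {x x' : ℝ} (H : SC h Z x) (H' : SC h Z' x') :
    SC h (Z ∪ Z') (x + x') := by
  intro ε hε
  obtain ⟨l, h1, h2, h3⟩ := H (ε / 2) (by positivity)
  obtain ⟨l', h1', h2', h3'⟩ := H' (ε / 2) (by positivity)
  refine ⟨l ++ l', ?_, ?_, ?_⟩
  · intro t ht
    rcases List.mem_append.mp ht with h | h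
    exacts [h1 t h, h1' t h]
  · rintro z (hz | hz)
    · obtain ⟨t, ht, h⟩ := h2 z hz
      exact ⟨t, List.mem_append_left _ ht, h⟩
    · obtain ⟨t, ht, h⟩ := h2' z hz
      exact ⟨t, List.mem_append_right _ ht, h⟩
  · rw [List.map_append, List.sum_append]; linarith

theorem SC.empty (h : ℝ) : SC h ∅ 0 := fun ε hε => ⟨[], by simp, by simp, by simpa using hε.le⟩

theorem SC.biUnion {h : ℝ} {ι : Type*} (F : Finset ι) (Z : ι → Set (ℝ × E2)) (x : ι → ℝ)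
    (H : ∀ i ∈ F, SC h (Z i) (x i)) : SC h (⋃ i ∈ F, Z i) (∑ i ∈ F, x i) := by
  classical
  induction F using Finset.induction_on with
  | empty => simpa using SC.empty h
  | insert a s ha ih =>
    rw [Finset.sum_insert ha, Finset.set_biUnion_insert]
    exact (H a (Finset.mem_insert_self _ _)).union
      (ih fun i hi => H i (Finset.mem_insert_of_mem hi))

theorem SC.of_forall {h : ℝ} {Z : Set (ℝ × E2)} {x C : ℝ} (hC : 0 ≤ C)
    (H : ∀ η : ℝ, 0 < η → η ≤ 1 → SC h Z (x + η * C)) : SC h Z x := by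
  intro ε hε
  have h0 : 0 < min 1 (ε / 2 / (C + 1)) := lt_min one_pos (by positivity)
  obtain ⟨l, h1, h2, h3⟩ := H _ h0 (min_le_left _ _) (ε / 2) (by positivity)
  refine ⟨l, h1, h2, h3.trans ?_⟩
  have h4 : min 1 (ε / 2 / (C + 1)) * C ≤ ε / 2 / (C + 1) * (C + 1) :=
    mul_le_mul (min_le_right _ _) (by linarith) hC (by positivity)
  rw [div_mul_cancel₀ _ (by positivity)] at h4
  linarith

theorem SC.cell (h : ℝ) {ρ : ℝ} (hρ : 0 < ρ) (k : ℤ × ℤ) (g : E2) :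
    SC h {z | z.2 - z.1 • g ∈ cellC ρ k} (ρ ^ 2 * J h g) := by
  intro ε hε
  refine ⟨[(corner ρ k, ρ, g)], by simpa using hρ, ?_, by simpa using hε.le⟩
  intro z hz
  obtain ⟨x, hx, y, hy, e⟩ := mem_cellC hρ hz
  refine ⟨_, List.mem_singleton_self _, x, hx, y, hy, ?_⟩
  simp only
  rw [← e]; abel

theorem SC.compact (h : ℝ) {T : Set E2} (hT : IsCompact T) (g : E2) :
    SC h {z | z.2 - z.1 • g ∈ T} ((volume T).toReal * J h g) := by
  apply SC.of_forall (C := 1) zero_le_one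
  intro η hη _
  obtain ⟨ρ, hρ, -, F, h1, -, h3⟩ := grid hT hη one_pos
  refine (SC.biUnion F _ _ fun k _ => SC.cell h hρ k g).mono ?_ ?_
  · intro z hz
    obtain ⟨k, hk, hz'⟩ := h1 _ hz
    simp only [mem_iUnion]
    exact ⟨k, hk, cellO_sub _ _ hz'⟩
  · rw [Finset.sum_const, nsmul_eq_mul, ← mul_assoc]
    have := J_nonneg h g
    have := J_le_one h g
    nlinarith

theorem mem_tri2 {q a b p : E2} {x y : ℝ} (hx : 0 ≤ x) (hy : 0 ≤ y) (hxy : x + y ≤ 1)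
    (e : p = q + x • a + y • b) : p ∈ tri2 q a b :=
  ⟨!₂[x, y], by simp [stdTri, hx, hy, hxy], by simp [e]⟩

theorem SC.tile (h : ℝ) (z f1 f2 g : E2) {ρ μ θ L : ℝ} (hρ : 0 < ρ) (hμ : 0 ≤ μ) (hθ : 0 < θ)
    (hμL : μ * L ≤ 1) :
    SC h {w | |w.1| ≤ L ∧ ∃ x ∈ Icc (0 : ℝ) 1, ∃ y ∈ Icc (0 : ℝ) 1, ∃ e1 e2 : ℝ,
        L * |e1| ≤ θ ∧ L * |e2| ≤ θ ∧ w.2 = z + ρ • (x • f1 + y • f2) +
          w.1 • (g + ρ • ((μ * x + e1) • f1 + (-μ * y + e2) • f2))}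
      (ρ ^ 2 * (1 + 2 * θ) ^ 2 * |f1 0 * f2 1 - f1 1 * f2 0| / 2 *
        (J h g + J h (g + (ρ * μ) • (f1 - f2)))) := by
  have H1 := SC.compact h (isCompact_tri2 (z - (ρ * θ) • (f1 + f2)) ((ρ * (1 + 2 * θ)) • f1)
    ((ρ * (1 + 2 * θ)) • f2)) g
  have H2 := SC.compact h (isCompact_tri2 (z + (ρ * (1 + θ)) • (f1 + f2))
    ((-(ρ * (1 + 2 * θ))) • f1) ((-(ρ * (1 + 2 * θ))) • f2)) (g + (ρ * μ) • (f1 - f2))
  refine (H1.union H2).mono ?_ ?_
  · rintro ⟨s, w⟩ ⟨hs, x, ⟨hx0, hx1⟩, y, ⟨hy0, hy1⟩, e1, e2, he1, he2, hw⟩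
    simp only at hs hw
    have hse1 : |s * e1| ≤ θ := by
      rw [abs_mul]; exact (mul_le_mul_of_nonneg_right hs (abs_nonneg _)).trans he1
    have hse2 : |s * e2| ≤ θ := by
      rw [abs_mul]; exact (mul_le_mul_of_nonneg_right hs (abs_nonneg _)).trans he2
    have hsμ : |s * μ| ≤ 1 := by
      rw [abs_mul, abs_of_nonneg hμ]; nlinarith
    obtain ⟨a1, a2⟩ := abs_le.mp hse1
    obtain ⟨b1, b2⟩ := abs_le.mp hse2
    obtain ⟨c1, c2⟩ := abs_le.mp hsμ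
    have hd : 0 < 1 + 2 * θ := by positivity
    set X := (1 + s * μ) * x + s * e1 with hX
    set Y := (1 - s * μ) * y + s * e2 with hY
    by_cases hc : X + Y ≤ 1
    · left
      apply mem_tri2 (x := (X + θ) / (1 + 2 * θ)) (y := (Y + θ) / (1 + 2 * θ))
      · apply div_nonneg _ hd.le
        nlinarith [mul_nonneg (show 0 ≤ 1 + s * μ by linarith) hx0]
      · apply div_nonneg _ hd.le
        nlinarith [mul_nonneg (show 0 ≤ 1 - s * μ by linarith) hy0]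
      · rw [← add_div, div_le_one hd]; linarith
      · simp only [hw]
        ext i
        simp only [PiLp.add_apply, PiLp.sub_apply, PiLp.smul_apply, smul_eq_mul, hX, hY]
        field_simp
        ring
    · right
      apply mem_tri2 (x := (1 + θ - (X - s * μ)) / (1 + 2 * θ))
        (y := (1 + θ - (Y + s * μ)) / (1 + 2 * θ))
      · apply div_nonneg _ hd.le
        nlinarith [mul_nonneg (show 0 ≤ 1 + s * μ by linarith) (sub_nonneg.mpr hx1)]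
      · apply div_nonneg _ hd.le
        nlinarith [mul_nonneg (show 0 ≤ 1 - s * μ by linarith) (sub_nonneg.mpr hy1)]
      · rw [← add_div, div_le_one hd]; linarith
      · simp only [hw]
        ext i
        simp only [PiLp.add_apply, PiLp.sub_apply, PiLp.smul_apply, smul_eq_mul, hX, hY]
        field_simp
        ring
  · rw [volume_tri2, volume_tri2]
    simp only [PiLp.smul_apply, smul_eq_mul]
    have e1 : ρ * (1 + 2 * θ) * f1 0 * (ρ * (1 + 2 * θ) * f2 1) -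
        ρ * (1 + 2 * θ) * f1 1 * (ρ * (1 + 2 * θ) * f2 0) =
        ρ ^ 2 * (1 + 2 * θ) ^ 2 * (f1 0 * f2 1 - f1 1 * f2 0) := by ring
    have e2 : -(ρ * (1 + 2 * θ)) * f1 0 * (-(ρ * (1 + 2 * θ)) * f2 1) -
        -(ρ * (1 + 2 * θ)) * f1 1 * (-(ρ * (1 + 2 * θ)) * f2 0) =
        ρ ^ 2 * (1 + 2 * θ) ^ 2 * (f1 0 * f2 1 - f1 1 * f2 0) := by ring
    rw [e1, e2, abs_mul, abs_of_nonneg (by positivity : 0 ≤ ρ ^ 2 * (1 + 2 * θ) ^ 2)]
    apply le_of_eq; ring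

def ruled (V : E2 → E2) (L : ℝ) (K : Set E2) : Set (ℝ × E2) :=
  {z | ∃ p ∈ K, |z.1| ≤ L ∧ z.2 = p + z.1 • V p}

end Crest.Agent.H7Cyl
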