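import Crest.Agent.H7Cyl.Plane

set_option autoImplicit false
open MeasureTheory Set
open scoped ENNReal

namespace Crest.Agent.H7Cyl

theorem det3_perp {e a b w : E3} (he : ‖e‖ = 1) (ha : inner ℝ a e = 0) (hb : inner ℝ b e = 0)
    (hw : inner ℝ w e = 0) : |det3 a b (e + w)| = gram a b := by
  have he0 : e ≠ 0 := by intro h; rw [h, norm_zero] at he; exact zero_ne_one he
  have h1 := gram_proj he0 a b
  rw [proj_unit he, proj_unit he, ha, hb, he] at h1
  simp only [zero_smul, sub_zero, div_one] at h1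
  rw [h1]
  have h2 : det3 a b w = 0 := by
    have h3 := normsq3 e
    rw [he] at h3
    rw [inner3] at ha hb hw
    unfold det3
    linear_combination
      (a 0 * (b 1 * w 2 - b 2 * w 1) - a 1 * (b 0 * w 2 - b 2 * w 0) + a 2 * (b 0 * w 1 - b 1 * w 0)) * h3
      + (e 0 * (b 1 * w 2 - b 2 * w 1) - e 1 * (b 0 * w 2 - b 2 * w 0) + e 2 * (b 0 * w 1 - b 1 * w 0)) * ha
      + (a 0 * (e 1 * w 2 - e 2 * w 1) - a 1 * (e 0 * w 2 - e 2 * w 0) + a 2 * (e 0 * w 1 - e 1 * w 0)) * hb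
      + (a 0 * (b 1 * e 2 - b 2 * e 1) - a 1 * (b 0 * e 2 - b 2 * e 0) + a 2 * (b 0 * e 1 - b 1 * e 0)) * hw
  congr 1
  unfold det3 at h2 ⊢
  simp only [PiLp.add_apply]
  linear_combination h2

theorem norm_add_perp {e w : E3} (he : ‖e‖ = 1) (hw : inner ℝ w e = 0) :
    ‖e + w‖ = Real.sqrt (1 + ‖w‖ ^ 2) := by
  rw [← Real.sqrt_sq (norm_nonneg (e + w)), norm_add_sq_real, he, real_inner_comm, hw]; simp

theorem gram_pos {a b : E3} (hab : LinearIndependent ℝ ![a, b]) : 0 < gram a b := by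
  refine lt_of_le_of_ne (gram_nonneg a b) fun h => ?_
  rw [← normDet_lin, eq_comm, LinearMap.normDet_eq_zero_iff_ker_ne_bot] at h
  apply h
  rw [LinearMap.ker_eq_bot']
  intro p hp
  obtain ⟨h0, h1⟩ := LinearIndependent.pair_iff.mp hab (p 0) (p 1) hp
  ext i; fin_cases i <;> simp [h0, h1]

theorem affInd_of_gram {p q r : E3} (h : gram (q - p) (r - p) ≠ 0) :
    AffineIndependent ℝ ![p, q, r] := by
  rw [affineIndependent_iff_not_collinear_set]
  intro hc
  rw [collinear_iff_of_mem (p₀ := p) (by simp)] at hc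
  obtain ⟨v, hv⟩ := hc
  obtain ⟨s, hs⟩ := hv q (by simp)
  obtain ⟨t, ht⟩ := hv r (by simp)
  apply h
  rw [hs, ht]
  simp only [vadd_eq_add, add_sub_cancel_right, gram_smul]
  simp [gram, ← sq]

theorem incr_decomp {a b : E3} {α β : ℝ} {w : ℝ → E3} {lam : ℝ → ℝ}
    (hlam : ContinuousOn lam (Icc α β))
    (hw' : ∀ t ∈ Icc α β, HasDerivWithinAt w (lam t • (a + t • b)) (Icc α β) t)
    {Λ : ℝ} (hΛ : ∀ t ∈ Icc α β, |lam t| ≤ Λ) {c τ : ℝ} (hc : c ∈ Icc α β) (hτ : τ ∈ Icc α β) :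
    ∃ μ0 μ2 : ℝ, |μ0| ≤ Λ * |τ - c| ∧ |μ2| ≤ Λ * |τ - c| * |τ - c| ∧
      w τ - w c = μ0 • (a + c • b) + μ2 • b := by
  have hsub : uIcc c τ ⊆ Icc α β := uIcc_subset_Icc hc hτ
  have hwc : ContinuousOn w (Icc α β) := fun t ht => (hw' t ht).continuousWithinAt
  have hl : ContinuousOn lam (uIcc c τ) := hlam.mono hsub
  have h1 : ∫ t in c..τ, lam t • (a + t • b) = w τ - w c := by
    apply intervalIntegral.integral_eq_sub_of_hasDeriv_right (hwc.mono hsub)
    · intro x hx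
      have hx' : x ∈ Ioo α β := by
        constructor
        · exact lt_of_le_of_lt (le_min hc.1 hτ.1) hx.1
        · exact lt_of_lt_of_le hx.2 (max_le hc.2 hτ.2)
      exact ((hw' x (Ioo_subset_Icc_self hx')).hasDerivAt (Icc_mem_nhds hx'.1 hx'.2)).hasDerivWithinAt
    · apply ContinuousOn.intervalIntegrable
      exact hl.smul (by fun_prop)
  refine ⟨∫ t in c..τ, lam t, ∫ t in c..τ, (t - c) * lam t, ?_, ?_, ?_⟩
  · rw [← Real.norm_eq_abs]
    apply intervalIntegral.norm_integral_le_of_norm_le_const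
    intro x hx
    exact hΛ x (hsub (uIoc_subset_uIcc hx))
  · rw [← Real.norm_eq_abs]
    apply intervalIntegral.norm_integral_le_of_norm_le_const
    intro x hx
    have hx' := uIoc_subset_uIcc hx
    rw [Real.norm_eq_abs, abs_mul, mul_comm]
    apply mul_le_mul (hΛ x (hsub hx')) (abs_sub_left_of_mem_uIcc hx') (abs_nonneg _)
    exact (abs_nonneg _).trans (hΛ c hc)
  · rw [← h1, ← intervalIntegral.integral_smul_const, ← intervalIntegral.integral_smul_const,
      ← intervalIntegral.integral_add]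
    · congr 1
      ext1 t
      module
    · apply ContinuousOn.intervalIntegrable
      exact hl.smul (by fun_prop)
    · apply ContinuousOn.intervalIntegrable
      exact (ContinuousOn.mul (by fun_prop) hl).smul (by fun_prop)

theorem exists_interval {τ : ℝ} : ∀ (N : ℕ) (t : Fin (N + 2) → ℝ), t 0 ≤ τ →
    τ ≤ t (Fin.last (N + 1)) → ∃ i : Fin (N + 1), t i.castSucc ≤ τ ∧ τ ≤ t i.succ := by
  intro N
  induction N with
  | zero => intro t h0 h1; exact ⟨0, h0, h1⟩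
  | succ N ih =>
    intro t h0 h1
    by_cases h : τ ≤ t (Fin.last (N + 1)).castSucc
    · obtain ⟨i, hi1, hi2⟩ := ih (fun j => t j.castSucc) h0 h
      exact ⟨i.castSucc, hi1, hi2⟩
    · push Not at h
      exact ⟨Fin.last (N + 1), h.le, h1⟩

theorem sum_tele {N : ℕ} (F : Fin (N + 1) → ℝ) :
    ∑ i : Fin N, (F i.succ - F i.castSucc) = F (Fin.last N) - F 0 := by
  have h1 := Fin.sum_univ_succ F
  have h2 := Fin.sum_univ_castSucc F
  rw [Finset.sum_sub_distrib]; linarith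

theorem tri_coords {l r c ω H X Y : ℝ} (hlr : l < r) (hH : 0 < H) (hX : X + 4 * ω ≤ H)
    (h1 : Y ≤ (r - c) * X + 2 * ω * (r - l)) (h2 : (l - c) * X - 2 * ω * (r - l) ≤ Y) :
    ∃ s t : ℝ, 0 ≤ s ∧ 0 ≤ t ∧ s + t ≤ 1 ∧ X = -4 * ω + s * H + t * H ∧
      Y = (-4 * ω * (r - c) + 2 * ω * (r - l)) + s * (H * (l - c)) + t * (H * (r - c)) := by
  have hΔ : 0 < r - l := by linarith
  refine ⟨((r - c) * X + 2 * ω * (r - l) - Y) / ((r - l) * H),
    (Y - ((l - c) * X - 2 * ω * (r - l))) / ((r - l) * H), ?_, ?_, ?_, ?_, ?_⟩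
  · apply div_nonneg (by linarith) (by positivity)
  · apply div_nonneg (by linarith) (by positivity)
  · rw [← add_div, div_le_one (by positivity)]
    nlinarith
  · field_simp; ring
  · field_simp; ring

/-- the piece of the sweep over `[l, r]` -/
def piece (e a b p₀ : E3) (L : ℝ) (R : ℝ → ℝ) (w : ℝ → E3) (l r : ℝ) : Set E3 :=
  {x | ∃ τ ∈ Icc l r, ∃ ρ ∈ Icc 0 (R τ), ∃ s : ℝ, abs s ≤ L ∧
    x = p₀ + ρ • (a + τ • b) + s • (e + w τ)}

theorem sweep_local {e a b p₀ : E3} (he : ‖e‖ = 1) (ha : inner ℝ a e = 0) (hb : inner ℝ b e = 0)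
    (hab : LinearIndependent ℝ ![a, b]) {L : ℝ} (hL : 0 < L) {R : ℝ → ℝ} {w : ℝ → E3}
    {l r c ω Λ : ℝ} (hlr : l < r) (hc : c ∈ Icc l r) (hω : 0 < ω) (hΛ : 0 ≤ Λ)
    (hwc : inner ℝ (w c) e = 0) (hR0 : ∀ τ ∈ Icc l r, 0 ≤ R τ)
    (hR : ∀ τ ∈ Icc l r, |R τ - R c| ≤ ω) (hm : L * Λ * (r - l) ≤ ω)
    (hdec : ∀ τ ∈ Icc l r, ∃ μ0 μ2 : ℝ, |μ0| ≤ Λ * |τ - c| ∧ |μ2| ≤ Λ * |τ - c| * |τ - c| ∧
      w τ - w c = μ0 • (a + c • b) + μ2 • b) :
    ∃ p q r' : E3, (inner ℝ p (e + w c) = 0 ∧ inner ℝ q (e + w c) = 0 ∧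
        inner ℝ r' (e + w c) = 0) ∧ AffineIndependent ℝ ![p, q, r'] ∧
      proj (e + w c) '' piece e a b p₀ L R w l r ⊆ convexHull ℝ {p, q, r'} ∧
      μHE[2] (convexHull ℝ ({p, q, r'} : Set E3)) =
        ENNReal.ofReal ((R c + 6 * ω) ^ 2 * (r - l) * (gram a b / (2 * Real.sqrt (1 + ‖w c‖ ^ 2)))) ∧
      ENNReal.ofReal ((max (R c - ω) 0) ^ 2 * (r - l) *
          (gram a b / (2 * Real.sqrt (1 + ‖w c‖ ^ 2)))) ≤
        μHE[2] (proj (e + w c) '' piece e a b p₀ L R w l r) := by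
  set v := e + w c with hv
  have hnv : ‖v‖ = Real.sqrt (1 + ‖w c‖ ^ 2) := norm_add_perp he hwc
  have hnv0 : 0 < ‖v‖ := by rw [hnv]; positivity
  have hv0 : v ≠ 0 := norm_pos_iff.mp hnv0
  set a' := proj v (a + c • b) with ha'
  set b' := proj v b with hb'
  have hg : gram a' b' = gram a b / Real.sqrt (1 + ‖w c‖ ^ 2) := by
    rw [ha', hb', gram_proj hv0, hnv, ← det3_perp he ha hb hwc]
    congr 2
    simp only [det3, PiLp.add_apply, PiLp.smul_apply, smul_eq_mul, hv]; ring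
  have hg0 : 0 < gram a' b' := by rw [hg]; have := gram_pos hab; positivity
  have hΔ : 0 < r - l := by linarith
  set H := R c + 6 * ω with hH
  have hH0 : 0 < H := by have := hR0 c hc; rw [hH]; positivity
  set P := proj v p₀ + (-4 * ω) • a' + (-4 * ω * (r - c) + 2 * ω * (r - l)) • b' with hP
  have hgram : ∀ h : ℝ, gram (h • a' + (h * (l - c)) • b') (h • a' + (h * (r - c)) • b') =
      h ^ 2 * (r - l) * gram a' b' := by
    intro h
    rw [gram_comb]
    congr 1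
    rw [show h * (h * (r - c)) - h * (l - c) * h = h ^ 2 * (r - l) by ring]
    exact abs_of_nonneg (by positivity)
  have hia : inner ℝ a' v = 0 := inner_proj hv0 _
  have hib : inner ℝ b' v = 0 := inner_proj hv0 _
  have hip : inner ℝ (proj v p₀) v = 0 := inner_proj hv0 _
  refine ⟨P, P + (H • a' + (H * (l - c)) • b'), P + (H • a' + (H * (r - c)) • b'), ?_, ?_, ?_, ?_, ?_⟩
  · simp [hP, inner_add_left, inner_smul_left, hia, hib, hip]
  · apply affInd_of_gram
    rw [add_sub_cancel_left, add_sub_cancel_left, hgram]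
    positivity
  · rintro _ ⟨_, ⟨τ, hτ, ρ, hρ, s, hs, rfl⟩, rfl⟩
    obtain ⟨μ0, μ2, h0, h2, hd⟩ := hdec τ hτ
    have hτc : |τ - c| ≤ r - l := by
      rw [abs_le]; constructor <;> linarith [hτ.1, hτ.2, hc.1, hc.2]
    have hσ : |s * μ0| ≤ ω := by
      rw [abs_mul]
      calc |s| * |μ0| ≤ L * (Λ * (r - l)) := by
            apply mul_le_mul hs (h0.trans (by gcongr)) (abs_nonneg _) hL.le
        _ ≤ ω := by linarith
    have hσ' : |s * μ2| ≤ ω * (r - l) := by
      rw [abs_mul]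
      calc |s| * |μ2| ≤ L * (Λ * (r - l) * (r - l)) := by
            apply mul_le_mul hs (h2.trans (by gcongr)) (abs_nonneg _) hL.le
        _ = (L * Λ * (r - l)) * (r - l) := by ring
        _ ≤ ω * (r - l) := by gcongr
    have hσ1 := abs_le.mp hσ
    have hσ2 := abs_le.mp hσ'
    have hRτ := abs_le.mp (hR τ hτ)
    obtain ⟨s', t', hs', ht', hst, hX, hY⟩ := tri_coords (c := c) (ω := ω) (X := ρ + s * μ0)
      (Y := ρ * (τ - c) + s * μ2) hlr hH0 (by rw [hH]; linarith [hρ.2])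
      (by nlinarith [hρ.1, hτ.1, hτ.2, hc.1, hc.2, mul_nonneg hρ.1 (sub_nonneg.mpr hτ.2),
            mul_nonneg (sub_nonneg.mpr hc.2) (sub_nonneg.mpr hσ1.1),
            mul_nonneg hω.le (sub_nonneg.mpr hc.1)])
      (by nlinarith [hρ.1, hτ.1, hτ.2, hc.1, hc.2, mul_nonneg hρ.1 (sub_nonneg.mpr hτ.1),
            mul_nonneg (sub_nonneg.mpr hc.1) (sub_nonneg.mpr hσ1.1),
            mul_nonneg hω.le (sub_nonneg.mpr hc.2)])
    rw [mem_hull3]
    refine ⟨s', t', hs', ht', hst, ?_⟩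
    have e1 : p₀ + ρ • (a + τ • b) + s • (e + w τ) =
        p₀ + (ρ + s * μ0) • (a + c • b) + (ρ * (τ - c) + s * μ2) • b + s • v := by
      have : w τ = w c + (μ0 • (a + c • b) + μ2 • b) := by rw [← hd]; abel
      rw [this, hv]; module
    rw [e1]
    simp only [proj_add _ _ (s • v), proj_smul, proj_self hv0, smul_zero, add_zero]
    rw [proj_add, proj_add, proj_smul, proj_smul, ← ha', ← hb', hX, hY, hP]
    module
  · rw [area_tri, add_sub_cancel_left, add_sub_cancel_left, hgram, hg]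
    congr 1; field_simp
  · set h := max (R c - ω) 0 with hh
    have hh0 : 0 ≤ h := le_max_right _ _
    have : convexHull ℝ ({proj v p₀, proj v p₀ + (h • a' + (h * (l - c)) • b'),
        proj v p₀ + (h • a' + (h * (r - c)) • b')} : Set E3) ⊆
        proj v '' piece e a b p₀ L R w l r := by
      intro x hx
      rw [mem_hull3] at hx
      obtain ⟨s, t, hs, ht, hst, rfl⟩ := hx
      obtain ⟨τ, hτ, hτ'⟩ : ∃ τ ∈ Icc l r, (s + t) * τ = s * l + t * r := by
        rcases (add_nonneg hs ht).eq_or_lt with h0 | h0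
        · have hs0 : s = 0 := by linarith
          have ht0 : t = 0 := by linarith
          exact ⟨l, ⟨le_rfl, hlr.le⟩, by rw [hs0, ht0]; ring⟩
        · refine ⟨(s * l + t * r) / (s + t), ⟨?_, ?_⟩, by field_simp⟩
          · rw [le_div_iff₀ h0]; nlinarith
          · rw [div_le_iff₀ h0]; nlinarith
      have hRτ := abs_le.mp (hR τ hτ)
      have hhR : h ≤ R τ := max_le (by linarith) (hR0 τ hτ)
      refine ⟨_, ⟨τ, hτ, (s + t) * h, ⟨by positivity, by nlinarith⟩, 0, by simpa using hL.le, rfl⟩, ?_⟩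
      have e1 : p₀ + ((s + t) * h) • (a + τ • b) + (0 : ℝ) • (e + w τ) =
          p₀ + ((s + t) * h) • (a + c • b) + (h * ((s + t) * τ) - (s + t) * h * c) • b := by
        module
      rw [e1, hτ', proj_add, proj_add, proj_smul, proj_smul, ← ha', ← hb']
      module
    refine le_trans (le_of_eq ?_) (measure_mono this)
    rw [area_tri, add_sub_cancel_left, add_sub_cancel_left, hgram, hg]
    congr 1; field_simp

end Crest.Agent.H7Cyl
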