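import Crest.Agent.H7Cyl.TriCov

set_option autoImplicit false
open MeasureTheory Set
open scoped ENNReal

namespace Crest.Agent.H7Cyl

/-- the standard regular tetrahedron -/
def tet : Set E3 :=
  convexHull ℝ {!₂[1, 0, 0], !₂[-1, 0, 0], !₂[0, 1, Real.sqrt 2], !₂[0, -1, Real.sqrt 2]}

theorem sqrt2_pos : 0 < Real.sqrt 2 := by positivity

theorem sqrt2_sq : Real.sqrt 2 ^ 2 = 2 := Real.sq_sqrt (by norm_num)

theorem tet_sub : tet ⊆ {x : E3 | |x 0| ≤ 1 - x 2 / Real.sqrt 2 ∧ |x 1| ≤ x 2 / Real.sqrt 2} := by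
  refine convexHull_min ?_ ?_
  · intro y hy
    simp only [mem_insert_iff, mem_singleton_iff] at hy
    have := sqrt2_pos
    rcases hy with rfl | rfl | rfl | rfl <;> simp
  · rintro x ⟨hx1, hx2⟩ y ⟨hy1, hy2⟩ a b ha hb hab
    simp only [mem_ofPred_eq, PiLp.add_apply, PiLp.smul_apply, smul_eq_mul]
    have h1 := abs_le.mp hx1
    have h2 := abs_le.mp hx2
    have h3 := abs_le.mp hy1
    have h4 := abs_le.mp hy2
    have e : (a * x 2 + b * y 2) / Real.sqrt 2 = a * (x 2 / Real.sqrt 2) + b * (y 2 / Real.sqrt 2) := by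
      ring
    rw [e]
    generalize x 2 / Real.sqrt 2 = X at *
    generalize y 2 / Real.sqrt 2 = Y at *
    constructor <;> rw [abs_le] <;> constructor <;> nlinarith

theorem exists_root (a y z : ℝ) (h : |y| ≤ z) :
    ∃ t ρ : ℝ, |t| ≤ 1 ∧ 0 ≤ ρ ∧ z = ρ + a * t ∧ y = ρ * t + a * (1 + t ^ 2) / 2 := by
  have hz : 0 ≤ z := (abs_nonneg _).trans h
  have hy := abs_le.mp h
  by_cases ha : a = 0
  · subst ha
    rcases hz.eq_or_lt with hz | hz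
    · subst hz
      refine ⟨0, 0, by simp, le_rfl, by simp, by simp; linarith⟩
    · refine ⟨y / z, z, ?_, hz.le, by simp, by field_simp; simp⟩
      rw [abs_div, abs_of_pos hz, div_le_one hz]; exact h
  · have hd : 0 ≤ z ^ 2 - 2 * a * y + a ^ 2 := by nlinarith [sq_nonneg (y - a)]
    set ρ := Real.sqrt (z ^ 2 - 2 * a * y + a ^ 2) with hρ
    have hρ0 : 0 ≤ ρ := Real.sqrt_nonneg _
    have hρ2 : ρ ^ 2 = z ^ 2 - 2 * a * y + a ^ 2 := Real.sq_sqrt hd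
    have hay : |a * y| ≤ |a| * z := by rw [abs_mul]; exact mul_le_mul_of_nonneg_left h (abs_nonneg _)
    have hay' := abs_le.mp hay
    have ha2 : |a| ^ 2 = a ^ 2 := sq_abs a
    have ha0 : 0 < |a| := abs_pos.mpr ha
    refine ⟨(z - ρ) / a, ρ, ?_, hρ0, by field_simp; ring, ?_⟩
    · rw [abs_div, div_le_one ha0, abs_le]
      constructor
      · have : ρ ≤ z + |a| := by
          by_contra hc
          push Not at hc
          nlinarith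
        linarith
      · have : z - |a| ≤ ρ := by
          by_contra hc
          push Not at hc
          nlinarith
        linarith
    · field_simp
      nlinarith

/-- the cap function -/
noncomputable def capR (t : ℝ) : ℝ := 1 / 2 + 51 / 2000000 * (t ^ 2 + t ^ 4)

theorem key_ineq (x y z t s ρ ρ' : ℝ) (ht : |t| ≤ 1) (hs : |s| ≤ 1)
    (h1 : z = ρ + (1 / 100 * x) * t) (h2 : y = ρ * t + (1 / 100 * x) * (1 + t ^ 2) / 2)
    (h3 : 1 - z = ρ' + (-1 / 100 * y) * s) (h4 : x = ρ' * s + (-1 / 100 * y) * (1 + s ^ 2) / 2) :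
    ρ ≤ capR t ∨ ρ' ≤ capR s := by
  by_contra hc
  push Not at hc
  obtain ⟨hc1, hc2⟩ := hc
  unfold capR at hc1 hc2
  obtain ⟨a, rfl⟩ : ∃ a, ρ = 1 / 2 + a := ⟨ρ - 1 / 2, by ring⟩
  obtain ⟨b, rfl⟩ : ∃ b, ρ' = 1 / 2 + b := ⟨ρ' - 1 / 2, by ring⟩
  have ht2 : t ^ 2 ≤ 1 := by rw [← sq_abs]; nlinarith [abs_nonneg t]
  have hs2 : s ^ 2 ≤ 1 := by rw [← sq_abs]; nlinarith [abs_nonneg s]
  have ha : 51 / 2000000 * (t ^ 2 + t ^ 4) < a := by linarith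
  have hb : 51 / 2000000 * (s ^ 2 + s ^ 4) < b := by linarith
  have ha0 : 0 ≤ a := by have : 0 ≤ 51 / 2000000 * (t ^ 2 + t ^ 4) := by positivity
                         linarith
  have hb0 : 0 ≤ b := by have : 0 ≤ 51 / 2000000 * (s ^ 2 + s ^ 4) := by positivity
                         linarith
  have hW : y * s - x * t = 100 * (a + b) := by linarith
  have hid : (y * s - x * t) * (1 + (1 + s ^ 2) * (1 + t ^ 2) / 40000) =
      s * t * (a - b) + 1 / 100 * ((1 / 2 + b) * s ^ 2 * (1 + t ^ 2) / 2 +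
        (1 / 2 + a) * t ^ 2 * (1 + s ^ 2) / 2) := by
    linear_combination (s + 1 / 100 * t * (1 + s ^ 2) / 2) * h2 -
      (t - 1 / 100 * s * (1 + t ^ 2) / 2) * h4
  have hst : |s * t| ≤ 1 := by
    rw [abs_mul]; exact mul_le_one₀ hs (abs_nonneg _) ht
  have hst' := abs_le.mp hst
  have e1 : s * t * (a - b) ≤ a + b := by nlinarith
  have e2 : s ^ 2 * (1 + t ^ 2) / 2 ≤ 1 := by nlinarith [sq_nonneg s, sq_nonneg t]
  have e3 : t ^ 2 * (1 + s ^ 2) / 2 ≤ 1 := by nlinarith [sq_nonneg s, sq_nonneg t]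
  have e4 : b * (s ^ 2 * (1 + t ^ 2) / 2) ≤ b := by nlinarith
  have e5 : a * (t ^ 2 * (1 + s ^ 2) / 2) ≤ a := by nlinarith
  have e6 : 100 * (a + b) ≤ 100 * (a + b) * (1 + (1 + s ^ 2) * (1 + t ^ 2) / 40000) := by
    have : 0 ≤ 100 * (a + b) * ((1 + s ^ 2) * (1 + t ^ 2) / 40000) := by positivity
    linarith
  rw [hW] at hid
  have e7 : 2 * s ^ 2 * t ^ 2 ≤ s ^ 4 + t ^ 4 := by nlinarith [sq_nonneg (s ^ 2 - t ^ 2)]
  have e8 : 0 ≤ s ^ 2 + t ^ 2 + s ^ 4 + t ^ 4 := by positivity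
  have e9 : (1 / 2 + b) * s ^ 2 * (1 + t ^ 2) / 2 + (1 / 2 + a) * t ^ 2 * (1 + s ^ 2) / 2 =
      b * (s ^ 2 * (1 + t ^ 2) / 2) + a * (t ^ 2 * (1 + s ^ 2) / 2) + (s ^ 2 + t ^ 2) / 4 +
        (2 * s ^ 2 * t ^ 2) / 4 := by ring
  rw [e9] at hid
  linarith

/-- lower region -/
def lowerReg (e : ℝ) : Set E3 :=
  {p | ∃ t ρ : ℝ, |t| ≤ 1 ∧ 0 ≤ ρ ∧ ρ ≤ capR t ∧ |p 0| ≤ 1 ∧
    p 2 / Real.sqrt 2 = ρ + (e * p 0) * t ∧ p 1 = ρ * t + (e * p 0) * (1 + t ^ 2) / 2}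

noncomputable def swapLin : E3 →ₗ[ℝ] E3 where
  toFun p := !₂[p 1, p 0, -p 2]
  map_add' p q := by ext i; fin_cases i <;> simp; ring
  map_smul' c p := by ext i; fin_cases i <;> simp

noncomputable def swapIso : E3 →ₗᵢ[ℝ] E3 :=
  swapLin.isometryOfInner (by intro x y; simp [swapLin, inner3]; ring)

theorem swapIso_apply (p : E3) : swapIso p = !₂[p 1, p 0, -p 2] := rfl

theorem tet_sub_union : tet ⊆ lowerReg (1 / 100) ∪
    (fun y => (!₂[0, 0, Real.sqrt 2] : E3) + (1 : ℝ) • swapIso y) '' lowerReg (-1 / 100) := by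
  intro p hp
  obtain ⟨h1, h2⟩ := tet_sub hp
  have hz0 : 0 ≤ p 2 / Real.sqrt 2 := (abs_nonneg _).trans h2
  have hz1 : 0 ≤ 1 - p 2 / Real.sqrt 2 := (abs_nonneg _).trans h1
  obtain ⟨t, ρ, ht, hρ, e1, e2⟩ := exists_root (1 / 100 * p 0) (p 1) _ h2
  obtain ⟨s, ρ', hs, hρ', e3, e4⟩ := exists_root (-1 / 100 * p 1) (p 0) _ h1
  rcases key_ineq _ _ _ _ _ _ _ ht hs e1 e2 e3 e4 with h | h
  · left
    exact ⟨t, ρ, ht, hρ, h, by linarith, e1, e2⟩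
  · right
    refine ⟨!₂[p 1, p 0, Real.sqrt 2 - p 2], ⟨s, ρ', hs, hρ', h, ?_, ?_, ?_⟩, ?_⟩
    · simp; linarith
    · have := sqrt2_pos
      simp only [Matrix.cons_val_zero, Matrix.cons_val]
      rw [← e3]; field_simp
    · simpa using e4
    · ext i; fin_cases i <;> simp [swapIso_apply]

theorem inv_sqrt_le (q : ℝ) (hq : 0 ≤ q) : (Real.sqrt (1 + q))⁻¹ ≤ 1 - q / 2 + q ^ 2 / 2 := by
  have hp : 0 < Real.sqrt (1 + q) := by positivity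
  have h0 : 0 < 1 - q / 2 + q ^ 2 / 2 := by nlinarith [sq_nonneg (q - 1 / 2)]
  rw [inv_le_comm₀ hp h0]
  apply Real.le_sqrt_of_sq_le
  rw [inv_pow, inv_le_iff_one_le_mul₀ (by positivity)]
  have : (1 + q) * (1 - q / 2 + q ^ 2 / 2) ^ 2 = 1 + q ^ 2 * (1 / 4 + 3 / 4 * q - 1 / 4 * q ^ 2 + 1 / 4 * q ^ 3) := by
    ring
  rw [this]
  have : 0 ≤ 1 / 4 + 3 / 4 * q - 1 / 4 * q ^ 2 + 1 / 4 * q ^ 3 := by
    nlinarith [mul_nonneg hq (sq_nonneg (q - 1 / 2))]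
  nlinarith [mul_nonneg (sq_nonneg q) this]

noncomputable def Phi (t : ℝ) : ℝ := 1 / 2 * (-t / 32 - 23 / 1200 * t ^ 3 + 179 / 4000 * t ^ 5)

theorem term_bound (c d q H : ℝ) (hc : |c| ≤ 1) (hd0 : 0 < d) (hd : d ≤ 1 / 1000000)
    (hq : q = 1 / 10000 * ((1 + c ^ 2) ^ 2 / 4 + 2 * c ^ 2)) (hH : H = capR c + d / 30) :
    d * H ^ 2 * (Real.sqrt (1 + q))⁻¹ ≤
      d * (1 / 4 + 6 / 100000000) + 1 / 10000 * (Phi (c + d) - Phi (c - d)) := by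
  have hc2 : c ^ 2 ≤ 1 := by rw [← sq_abs]; nlinarith [abs_nonneg c]
  have hc20 : 0 ≤ c ^ 2 := sq_nonneg c
  have hc4 : c ^ 4 ≤ 1 := by nlinarith
  have hc40 : 0 ≤ c ^ 4 := by positivity
  have hq0 : 0 ≤ q := by rw [hq]; positivity
  have hq1 : q ≤ 3 / 10000 := by rw [hq]; nlinarith
  have h1 := inv_sqrt_le q hq0
  obtain ⟨h, rfl⟩ : ∃ h, H = 1 / 2 + h := ⟨H - 1 / 2, by ring⟩
  have hh : h = 51 / 2000000 * (c ^ 2 + c ^ 4) + d / 30 := by unfold capR at hH; linarith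
  have hh0 : 0 ≤ h := by rw [hh]; positivity
  have hh1 : h ≤ 52 / 1000000 := by rw [hh]; linarith
  have h2 : (1 / 2 + h) ^ 2 * (Real.sqrt (1 + q))⁻¹ ≤ (1 / 2 + h) ^ 2 * (1 - q / 2 + q ^ 2 / 2) :=
    mul_le_mul_of_nonneg_left h1 (sq_nonneg _)
  have hq2 : q ^ 2 ≤ 9 / 100000000 := by nlinarith
  have hh2 : h ^ 2 ≤ 3 / 1000000000 := by nlinarith
  have h3 : (1 / 2 + h) ^ 2 * (1 - q / 2 + q ^ 2 / 2) ≤ 1 / 4 + h - q / 8 + 15 / 1000000000 := by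
    have e1 : 0 ≤ (h + h ^ 2) * q := by positivity
    have e2 : (1 / 2 + h) ^ 2 * q ^ 2 ≤ 26 / 100 * (9 / 100000000) := by
      apply mul_le_mul _ hq2 (sq_nonneg _) (by norm_num)
      nlinarith
    nlinarith
  have h4 : Phi (c + d) - Phi (c - d) = d * (-1 / 32 - 23 / 400 * c ^ 2 + 179 / 800 * c ^ 4) +
      d ^ 3 * (-23 / 1200 + 179 / 400 * c ^ 2 + 179 / 4000 * d ^ 2) := by
    unfold Phi; ring
  have h5 : -(d * (1 / 1000000000)) ≤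
      d ^ 3 * (-23 / 1200 + 179 / 400 * c ^ 2 + 179 / 4000 * d ^ 2) := by
    have : d ^ 3 * (-23 / 1200 + 179 / 400 * c ^ 2 + 179 / 4000 * d ^ 2) =
      d * (d ^ 2 * (-23 / 1200 + 179 / 400 * c ^ 2 + 179 / 4000 * d ^ 2)) := by ring
    rw [this, ← mul_neg]
    apply mul_le_mul_of_nonneg_left _ hd0.le
    have e1 : d ^ 2 ≤ 1 / 1000000000 := by nlinarith
    have e2 : 0 ≤ d ^ 2 * (179 / 400 * c ^ 2 + 179 / 4000 * d ^ 2) := by positivity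
    nlinarith [sq_nonneg d]
  have h6 : (1 / 2 + h) ^ 2 * (Real.sqrt (1 + q))⁻¹ ≤ 1 / 4 + 5 / 100000000 +
      1 / 10000 * (-1 / 32 - 23 / 400 * c ^ 2 + 179 / 800 * c ^ 4) := by
    have : 1 / 4 + h - q / 8 + 15 / 1000000000 ≤ 1 / 4 + 5 / 100000000 +
      1 / 10000 * (-1 / 32 - 23 / 400 * c ^ 2 + 179 / 800 * c ^ 4) := by
      have : (1 + c ^ 2) ^ 2 = 1 + 2 * c ^ 2 + c ^ 4 := by ring
      rw [hh, hq, this]; linarith
    linarith
  have h7 := mul_le_mul_of_nonneg_left h6 hd0.le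
  rw [h4, mul_assoc]
  linarith

end Crest.Agent.H7Cyl
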