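import Crest.Agent.H7Cyl.Tet

set_option autoImplicit false
open MeasureTheory Set
open scoped ENNReal

namespace Crest.Agent.H7Cyl

theorem exists_cell (N : ℕ) (hN : 0 < N) (t : ℝ) (ht : |t| ≤ 1) :
    ∃ i : Fin N, |t - (-1 + (2 * (i : ℝ) + 1) * (1 / N))| ≤ 1 / N := by
  have hNr : (0 : ℝ) < N := by exact_mod_cast hN
  have ht' := abs_le.mp ht
  set x : ℝ := (t + 1) * N / 2 with hx
  have hx0 : 0 ≤ x := by rw [hx]; have : 0 ≤ t + 1 := by linarith
                         positivity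
  have hx1 : x ≤ N := by rw [hx]; nlinarith
  have htx : t = -1 + 2 * x * (1 / N) := by rw [hx]; field_simp; ring
  have key : ∀ i : ℕ, (i : ℝ) ≤ x → x ≤ i + 1 →
      |t - (-1 + (2 * (i : ℝ) + 1) * (1 / N))| ≤ 1 / N := by
    intro i h1 h2
    have : t - (-1 + (2 * (i : ℝ) + 1) * (1 / N)) = (2 * x - 2 * i - 1) * (1 / N) := by
      rw [htx]; ring
    rw [this, abs_mul, abs_of_pos (by positivity : (0:ℝ) < 1 / N)]
    have : |2 * x - 2 * i - 1| ≤ 1 := by rw [abs_le]; constructor <;> linarith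
    exact mul_le_of_le_one_left (by positivity) this
  by_cases h : ⌊x⌋₊ < N
  · exact ⟨⟨⌊x⌋₊, h⟩, key _ (Nat.floor_le hx0) (Nat.lt_floor_add_one x).le⟩
  · push Not at h
    have h1 : (N : ℝ) ≤ x := le_trans (by exact_mod_cast h) (Nat.floor_le hx0)
    refine ⟨⟨N - 1, by omega⟩, key (N - 1) ?_ ?_⟩
    · rw [Nat.cast_sub (by omega)]; simp; linarith
    · rw [Nat.cast_sub (by omega)]; simp; linarith

theorem capR_le (t c d : ℝ) (ht : |t| ≤ 1) (hc : |c| ≤ 1) (h : |t - c| ≤ d) :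
    capR t ≤ capR c + 153 / 1000000 * d := by
  unfold capR
  have h1 : |t + c| ≤ 2 := (abs_add_le _ _).trans (by linarith)
  have h2 : t ^ 2 - c ^ 2 ≤ 2 * d := by
    have : t ^ 2 - c ^ 2 = (t - c) * (t + c) := by ring
    rw [this]
    calc (t - c) * (t + c) ≤ |(t - c) * (t + c)| := le_abs_self _
      _ = |t - c| * |t + c| := abs_mul _ _
      _ ≤ d * 2 := mul_le_mul h h1 (abs_nonneg _) ((abs_nonneg _).trans h)
      _ = 2 * d := by ring
  have hd : 0 ≤ d := (abs_nonneg _).trans h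
  have ht2 : t ^ 2 ≤ 1 := by rw [← sq_abs]; nlinarith [abs_nonneg t]
  have hc2 : c ^ 2 ≤ 1 := by rw [← sq_abs]; nlinarith [abs_nonneg c]
  have h3 : t ^ 4 - c ^ 4 ≤ 4 * d := by
    have : t ^ 4 - c ^ 4 = (t ^ 2 - c ^ 2) * (t ^ 2 + c ^ 2) := by ring
    rw [this]
    nlinarith [sq_nonneg t, sq_nonneg c]
  linarith

theorem lower_cover (e : ℝ) (he : |e| = 1 / 100) (N : ℕ) (hN : 1000000 ≤ N) :
    ∃ A : ℝ, TriCov (lowerReg e) N A ∧ A ≤ Real.sqrt 2 * (1 / 4 - 5 / 10000000) := by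
  have hN0 : 0 < N := by omega
  have hNr : (1000000 : ℝ) ≤ N := by exact_mod_cast hN
  set d : ℝ := 1 / N with hd
  have hd0 : 0 < d := by rw [hd]; positivity
  have hd1 : d ≤ 1 / 1000000 := by
    rw [hd]; exact one_div_le_one_div_of_le (by norm_num) hNr
  have hNd : (N : ℝ) * d = 1 := by rw [hd]; field_simp
  set c : ℕ → ℝ := fun i => -1 + (2 * (i : ℝ) + 1) * d with hc
  have hc1 : ∀ i : Fin N, |c i| ≤ 1 := by
    intro i
    have h1 : ((i : ℕ) : ℝ) + 1 ≤ N := by exact_mod_cast i.2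
    have h0 : (0 : ℝ) ≤ (i : ℕ) := by positivity
    rw [abs_le]; simp only [hc]
    constructor <;> nlinarith
  set H : ℕ → ℝ := fun i => capR (c i) + d / 30 with hH
  have hH0 : ∀ i, 0 < H i := by
    intro i; simp only [hH, capR]; positivity
  have he2 : e ^ 2 = 1 / 10000 := by rw [← sq_abs, he]; norm_num
  set v : Fin N → E3 := fun i => !₂[1, e * (1 + c i ^ 2) / 2, Real.sqrt 2 * (e * c i)] with hv
  set P : Fin N → E3 := fun i => !₂[0, -(c i * (3 / 200 * d)), -(Real.sqrt 2 * (3 / 200 * d))] with hP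
  set Q : Fin N → E3 := fun i => P i + !₂[0, H i * (c i - d), H i * Real.sqrt 2] with hQ
  set R : Fin N → E3 := fun i => P i + !₂[0, H i * (c i + d), H i * Real.sqrt 2] with hR
  have hv0 : ∀ i, v i ≠ 0 := by
    intro i h
    have := congrArg (fun z : E3 => z 0) h
    simp [hv] at this
  refine ⟨_, TriCov.of_oblique _ N v P Q R hv0 ?_, ?_⟩
  · rintro p ⟨t, ρ, ht, hρ, hρR, hx, e1, e2⟩
    obtain ⟨i, hi⟩ := exists_cell N hN0 t ht
    have hi' : |t - c i| ≤ d := hi
    have hR' := capR_le t (c i) d ht (hc1 i) hi'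
    set σ := e * p 0 * (t - c i) with hσ
    have hσ1 : |σ| ≤ d / 100 := by
      rw [hσ, abs_mul, abs_mul, he]
      have := mul_le_mul hx hi' (abs_nonneg _) zero_le_one
      nlinarith
    have hσ2 := abs_le.mp hσ1
    set θ := (t - c i) / d with hθ
    have hθ1 : |θ| ≤ 1 := by rw [hθ, abs_div, abs_of_pos hd0, div_le_one hd0]; exact hi'
    have hθ2 := abs_le.mp hθ1
    have htθ : t = c i + θ * d := by rw [hθ]; field_simp; ring
    set Z := ρ + σ + 3 / 200 * d with hZ
    set U := (ρ + σ / 2) * θ with hU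
    have hU1 : |U| ≤ Z := by
      rw [hU, abs_mul]
      have : |ρ + σ / 2| ≤ Z := by rw [abs_le]; constructor <;> linarith
      calc |ρ + σ / 2| * |θ| ≤ |ρ + σ / 2| * 1 := by gcongr
        _ ≤ Z := by linarith
    have hU2 := abs_le.mp hU1
    have hZH : Z ≤ H i := by simp only [hH]; linarith
    have hHi := hH0 i
    refine ⟨i, (Z - U) / (2 * H i), (Z + U) / (2 * H i), p 0, ?_, ?_, ?_, ?_⟩
    · apply div_nonneg <;> linarith
    · apply div_nonneg <;> linarith
    · rw [← add_div, div_le_one (by linarith)]; linarith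
    · have hs := sqrt2_pos
      have e1' : p 2 = Real.sqrt 2 * (ρ + e * p 0 * t) := by rw [← e1]; field_simp
      ext j
      fin_cases j
      · simp [hP, hQ, hR, hv]
      · simp only [hP, hQ, hR, hv]
        simp
        rw [e2, hZ, hU, hσ]
        have : t - c i = θ * d := by rw [htθ]; ring
        rw [this]
        conv_lhs => rw [htθ]
        field_simp
        ring
      · simp only [hP, hQ, hR, hv]
        simp
        rw [e1', hZ, hσ]
        field_simp
        ring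
  · have hterm : ∀ i : Fin N, |det3 (Q i - P i) (R i - P i) (v i)| / ‖v i‖ / 2 ≤
        Real.sqrt 2 * (d * (1 / 4 + 6 / 100000000) +
          1 / 10000 * (Phi (-1 + 2 * ((i : ℕ) + 1 : ℕ) * d) - Phi (-1 + 2 * (i : ℕ) * d))) := by
      intro i
      have h1 := term_bound (c i) d _ (H i) (hc1 i) hd0 hd1 rfl rfl
      have hn : ‖v i‖ = Real.sqrt (1 + 1 / 10000 * ((1 + c i ^ 2) ^ 2 / 4 + 2 * c i ^ 2)) := by
        rw [← Real.sqrt_sq (norm_nonneg (v i)), normsq3]
        congr 1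
        simp only [hv]
        simp
        rw [mul_pow, mul_pow, div_pow, mul_pow, sqrt2_sq, he2]; ring
      have hdet : det3 (Q i - P i) (R i - P i) (v i) = -(2 * Real.sqrt 2 * d * H i ^ 2) := by
        simp only [hP, hQ, hR, hv, det3]
        simp
        ring
      have hs := sqrt2_pos
      rw [hdet, abs_neg, abs_of_pos (by have := hH0 i; positivity), hn]
      have e1 : c i + d = -1 + 2 * ((i : ℕ) + 1 : ℕ) * d := by simp only [hc]; push_cast; ring
      have e2 : c i - d = -1 + 2 * (i : ℕ) * d := by simp only [hc]; ring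
      rw [e1, e2] at h1
      refine le_trans (le_of_eq ?_) (mul_le_mul_of_nonneg_left h1 hs.le)
      field_simp
    refine (Finset.sum_le_sum fun i _ => hterm i).trans ?_
    rw [← Finset.mul_sum]
    apply mul_le_mul_of_nonneg_left _ sqrt2_pos.le
    rw [Finset.sum_add_distrib, ← Finset.mul_sum, ← Finset.mul_sum]
    rw [Fin.sum_univ_eq_sum_range (fun i : ℕ => Phi (-1 + 2 * ((i : ℕ) + 1 : ℕ) * d) -
      Phi (-1 + 2 * (i : ℕ) * d)) N, Finset.sum_range_sub (fun i : ℕ => Phi (-1 + 2 * (i : ℕ) * d))]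
    have e3 : -1 + 2 * (N : ℝ) * d = 1 := by rw [mul_assoc, hNd]; norm_num
    rw [e3]
    simp only [Finset.sum_const, Finset.card_univ, Fintype.card_fin, nsmul_eq_mul]
    rw [← mul_assoc, mul_comm d, hNd]
    simp [Phi]; norm_num

theorem tet_cover : ∃ A : ℝ, TriCov tet (1000000 + 1000000) A ∧
    A ≤ Real.sqrt 2 * (1 / 2 - 1 / 1000000) := by
  obtain ⟨A1, h1, h1'⟩ := lower_cover (1 / 100) (by norm_num [abs_of_pos]) 1000000 le_rfl
  obtain ⟨A2, h2, h2'⟩ := lower_cover (-1 / 100) (by norm_num [abs_of_neg]) 1000000 le_rfl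
  have h3 := h2.similarity (!₂[0, 0, Real.sqrt 2] : E3) 1 swapIso
  refine ⟨_, (h1.union h3).mono tet_sub_union, ?_⟩
  linarith

end Crest.Agent.H7Cyl
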