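import Crest.Agent.H7Cyl.Basic

set_option autoImplicit false
open MeasureTheory Set
open scoped ENNReal

namespace Crest.Agent.H7Cyl

/-- `S` is covered by `m` cylinders with perpendicular triangular bases of total area `A`. -/
def TriCov (S : Set E3) (m : ℕ) (A : ℝ) : Prop :=
  ∃ u p q r : Fin m → E3, (∀ i, ‖u i‖ = 1) ∧
    (∀ i, inner ℝ (p i) (u i) = 0 ∧ inner ℝ (q i) (u i) = 0 ∧ inner ℝ (r i) (u i) = 0) ∧
    S ⊆ ⋃ i, {x : E3 | ∃ b ∈ convexHull ℝ {p i, q i, r i}, ∃ t : ℝ, x = b + t • u i} ∧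
    ∑ i, gram (q i - p i) (r i - p i) / 2 = A

theorem TriCov.mono {S S' : Set E3} {m : ℕ} {A : ℝ} (h : TriCov S m A) (hS : S' ⊆ S) :
    TriCov S' m A := by
  obtain ⟨u, p, q, r, h1, h2, h3, h4⟩ := h
  exact ⟨u, p, q, r, h1, h2, hS.trans h3, h4⟩

theorem TriCov.of_oblique (S : Set E3) (m : ℕ) (v P Q R : Fin m → E3) (hv : ∀ i, v i ≠ 0)
    (hcov : ∀ x ∈ S, ∃ i, ∃ s t τ : ℝ, 0 ≤ s ∧ 0 ≤ t ∧ s + t ≤ 1 ∧
      x = P i + s • (Q i - P i) + t • (R i - P i) + τ • v i) :
    TriCov S m (∑ i, |det3 (Q i - P i) (R i - P i) (v i)| / ‖v i‖ / 2) := by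
  have hn : ∀ i, ‖v i‖ ≠ 0 := fun i => norm_ne_zero_iff.mpr (hv i)
  refine ⟨fun i => ‖v i‖⁻¹ • v i, fun i => proj (v i) (P i), fun i => proj (v i) (Q i),
    fun i => proj (v i) (R i), ?_, ?_, ?_, ?_⟩
  · intro i
    rw [norm_smul, norm_inv, norm_norm, inv_mul_cancel₀ (hn i)]
  · intro i
    simp only [inner_smul_right, inner_proj (hv i), mul_zero, and_self]
  · intro x hx
    obtain ⟨i, s, t, τ, hs, ht, hst, hx'⟩ := hcov x hx
    refine mem_iUnion.mpr ⟨i, proj (v i) x, ?_, ‖v i‖ * (inner ℝ x (v i) / ‖v i‖ ^ 2), ?_⟩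
    · rw [mem_hull3]
      refine ⟨s, t, hs, ht, hst, ?_⟩
      rw [hx']
      simp only [proj_add, proj_smul, proj_sub, proj_self (hv i), smul_zero, add_zero]
    · rw [smul_smul, mul_right_comm, mul_inv_cancel₀ (hn i), one_mul]
      exact eq_proj_add _ _
  · refine Finset.sum_congr rfl fun i _ => ?_
    rw [← proj_sub, ← proj_sub, gram_proj (hv i)]

theorem TriCov.union {S S' : Set E3} {m m' : ℕ} {A A' : ℝ} (h : TriCov S m A)
    (h' : TriCov S' m' A') : TriCov (S ∪ S') (m + m') (A + A') := by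
  obtain ⟨u, p, q, r, h1, h2, h3, h4⟩ := h
  obtain ⟨u', p', q', r', h1', h2', h3', h4'⟩ := h'
  refine ⟨Fin.append u u', Fin.append p p', Fin.append q q', Fin.append r r', ?_, ?_, ?_, ?_⟩
  · intro i
    refine Fin.addCases (fun i => ?_) (fun i => ?_) i <;> simp [h1, h1']
  · intro i
    refine Fin.addCases (fun i => ?_) (fun i => ?_) i <;> simp [h2, h2']
  · rintro x (hx | hx)
    · obtain ⟨i, hi⟩ := mem_iUnion.mp (h3 hx)
      exact mem_iUnion.mpr ⟨Fin.castAdd m' i, by simpa using hi⟩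
    · obtain ⟨i, hi⟩ := mem_iUnion.mp (h3' hx)
      exact mem_iUnion.mpr ⟨Fin.natAdd m i, by simpa using hi⟩
  · rw [Fin.sum_univ_add]
    simp [h4, h4']

theorem TriCov.empty_zero (k : ℕ) : TriCov ∅ k 0 := by
  refine ⟨fun _ => !₂[1, 0, 0], fun _ => 0, fun _ => 0, fun _ => 0, ?_, ?_, ?_, ?_⟩
  · intro i
    rw [← sq_eq_sq₀ (norm_nonneg _) zero_le_one, normsq3]; simp
  · intro i; simp
  · exact empty_subset _
  · simp [gram]

theorem TriCov.empty_one (x : ℝ) (hx : 0 ≤ x) : TriCov ∅ 1 x := by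
  refine ⟨fun _ => !₂[1, 0, 0], fun _ => 0, fun _ => !₂[0, 1, 0], fun _ => !₂[0, 0, 2 * x],
    ?_, ?_, ?_, ?_⟩
  · intro i
    rw [← sq_eq_sq₀ (norm_nonneg _) zero_le_one, normsq3]; simp
  · intro i; simp [inner3]
  · exact empty_subset _
  · simp only [Finset.univ_unique, sub_zero, Finset.sum_const, Finset.card_singleton, one_smul, gram,
      normsq3, inner3]
    simp
    rw [Real.sqrt_sq (by positivity)]; ring

theorem TriCov.pad {S : Set E3} {m n : ℕ} {A B : ℝ} (h : TriCov S m A) (hmn : m + 1 ≤ n)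
    (hAB : A ≤ B) : TriCov S n B := by
  obtain ⟨k, rfl⟩ := Nat.exists_eq_add_of_le hmn
  have := (h.union (TriCov.empty_one (B - A) (by linarith))).union (TriCov.empty_zero k)
  simpa using this

theorem TriCov.similarity {S : Set E3} {m : ℕ} {A : ℝ} (h : TriCov S m A) (c : E3) (lam : ℝ)
    (O : E3 →ₗᵢ[ℝ] E3) : TriCov ((fun y => c + lam • O y) '' S) m (lam ^ 2 * A) := by
  obtain ⟨u, p, q, r, h1, h2, h3, h4⟩ := h
  have hu : ∀ i, O (u i) ≠ 0 := by
    intro i h0
    have := h1 i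
    rw [← O.norm_map, h0, norm_zero] at this
    exact zero_ne_one this
  refine ⟨fun i => O (u i), fun i => proj (O (u i)) c + lam • O (p i),
    fun i => proj (O (u i)) c + lam • O (q i), fun i => proj (O (u i)) c + lam • O (r i),
    ?_, ?_, ?_, ?_⟩
  · intro i; simp [h1]
  · intro i
    simp [inner_add_left, inner_smul_left, inner_proj (hu i), h2 i]
  · rintro _ ⟨y, hy, rfl⟩
    obtain ⟨i, b, hb, t, rfl⟩ := mem_iUnion.mp (h3 hy)
    rw [mem_hull3] at hb
    obtain ⟨s, t', hs, ht', hst, rfl⟩ := hb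
    refine mem_iUnion.mpr ⟨i, proj (O (u i)) c + lam • O (p i + s • (q i - p i) + t' • (r i - p i)),
      ?_, inner ℝ c (O (u i)) / ‖O (u i)‖ ^ 2 + lam * t, ?_⟩
    · rw [mem_hull3]
      refine ⟨s, t', hs, ht', hst, ?_⟩
      simp only [map_add, map_smul, map_sub]
      module
    · conv_lhs => rw [eq_proj_add (O (u i)) c]
      simp only [map_add, map_smul, map_sub]
      module
  · rw [← h4, Finset.mul_sum]
    refine Finset.sum_congr rfl fun i _ => ?_
    have e1 : proj (O (u i)) c + lam • O (q i) - (proj (O (u i)) c + lam • O (p i))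
        = lam • O (q i - p i) := by simp only [map_sub]; module
    have e2 : proj (O (u i)) c + lam • O (r i) - (proj (O (u i)) c + lam • O (p i))
        = lam • O (r i - p i) := by simp only [map_sub]; module
    rw [e1, e2, gram_smul, gram_iso, abs_mul_self]; ring

end Crest.Agent.H7Cyl
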